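import Vale.Agent.P088.R2.H999.S4.Sol

/-!
# P088, stage 4, row X-TR: pointwise algebra of the trace part
-/

open MeasureTheory Set
open scoped ContDiff Matrix Topology

noncomputable section

namespace Vale.Agent.P088.S4.H999

open Vale.Agent.P088.LR Vale.Agent.P088.LR.U Vale.Agent.P088.LR.H158 Vale.Agent.P088.HY
open Vale.Agent.P088.PJ
open Vale.Agent.P088.PJ.H960 (fr entry_le nq_nonneg fr_nonneg fr_sq fr_zero fr_add fr_sub fr_mul fr_smul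
  fr_sum fr_le trace_le trace_mul_le cl_norm cl_mono cl_pd cdp)
open Vale.Agent.P088.R2.H238.S3 (cs3)

variable {n N : ℕ}

/-! ### monotonicity of the hypotheses -/

theorem clC_mono {k l : ℕ} {δ ε : ℝ} {P : MC n N} (h : ClC k δ P) (hl : l ≤ k) (hε : δ ≤ ε) :
    ClC l ε P := fun a b => cl_mono (h a b) hl hε

theorem Da.mono {k l : ℕ} {δ ε : ℝ} {O : Set (V n)} {s : MF n} {P : MC n N} {G : Fin n → MC n N}
    (h : Da k δ O s P G) (hl : l ≤ k) (hε : δ ≤ ε) : Da l ε O s P G :=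
  ⟨h.ss, h.sy, h.sP, h.hP, h.sG, h.hG, fun i j => cl_mono (h.cs i j) hl hε,
    clC_mono h.cP hl hε, fun i => clC_mono (h.cG i) hl hε, h.dq, h.pe⟩

theorem RL.mono {k l : ℕ} {δ ε : ℝ} {O K : Set (V n)} {j₀ : Fin N} {s₁ s₂ : MF n}
    {P₁ P₂ : MC n N} {G₁ G₂ β Y D : Fin n → MC n N} (h : RL k δ O K j₀ s₁ s₂ P₁ P₂ G₁ G₂ β Y D) (hl : l ≤ k) (hε : δ ≤ ε) :
    RL l ε O K j₀ s₁ s₂ P₁ P₂ G₁ G₂ β Y D :=
  ⟨h.op, h.cl, Da.mono h.d₁ hl hε, Da.mono h.d₂ hl hε, h.sβ,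
    fun a => clC_mono (h.cβ a) hl hε, h.eβ, h.LY, h.os, h.oP, h.oG, h.oD, h.sY, h.sD,
    fun a => clC_mono (h.cY a) hl hε, fun a => clC_mono (h.cD a) hl hε, h.tD, h.hY, h.gi⟩

theorem IG.mono {k l : ℕ} {δ ε : ℝ} {Y : Fin n → MC n N} {Γ : Fin n → Fin n → MC n N}
    (h : IG k δ Y Γ) (hl : l ≤ k) (hε : δ ≤ ε) : IG l ε Y Γ :=
  ⟨h.sm, h.li, h.ri, fun a b => clC_mono (h.cl a b) hl hε⟩

/-! ### the functions -/

/-- `Re tr Z_jb`. -/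
def fA (j₀ : Fin N) (s₁ s₂ : MF n) (P₁ P₂ : MC n N) (j b : Fin n) (x : V n) : ℝ :=
  (Zt s₁ s₂ P₁ P₂ j b x j₀ j₀).re

/-- `Re tr ∑ T₂_ij ∂_j D_a Γ_ab`. -/
def fE (j₀ : Fin N) (s₂ : MF n) (P₂ : MC n N) (D : Fin n → MC n N) (Γ : Fin n → Fin n → MC n N) (i b : Fin n)
    (x : V n) : ℝ := ((∑ j, ∑ a, TP s₂ P₂ i j x * pdm j (D a) x * Γ a b x) j₀ j₀).re

/-- The lower order terms. -/
def fR (j₀ : Fin N) (s₁ s₂ : MF n) (P₁ P₂ : MC n N) (G₂ Y D : Fin n → MC n N) (Γ : Fin n → Fin n → MC n N)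
    (b : Fin n) (x : V n) : ℝ :=
  ((∑ i, ∑ j, ∑ a, Zt s₁ s₂ P₁ P₂ j i x * pdm i (Y a) x * pdm j (Γ a b) x) j₀ j₀).re
    + ((∑ i, ∑ j, ∑ a, TP s₂ P₂ i j x * pdm j (D a) x * pdm i (Γ a b) x) j₀ j₀).re
    - ((∑ i, ∑ a, kp s₂ G₂ i x * pdm i (D a) x * Γ a b x) j₀ j₀).re

theorem fA_eq (j₀ : Fin N) (s₁ s₂ : MF n) (P₁ P₂ : MC n N) (j b : Fin n) (x : V n) :
    fA j₀ s₁ s₂ P₁ P₂ j b x = (P₂ x j₀ j₀).re *
      (s₂ x j b - s₁ x j b - ph s₁ s₂ x * s₁ x j b) + s₁ x j b * ps j₀ s₁ s₂ P₁ P₂ x := by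
  unfold fA ps Zt TP
  simp only [Matrix.sub_apply, Matrix.smul_apply, Complex.sub_re, smul_eq_mul,
    Complex.re_ofReal_mul]
  ring

/-! ### smoothness -/

theorem re_s {f : V n → ℂ} (hf : ContDiff ℝ ∞ f) : ContDiff ℝ ∞ fun x => (f x).re :=
  Complex.reCLM.contDiff.comp hf

theorem tr_s {P : MC n N} (hP : SmC P) (j₀ : Fin N) : ContDiff ℝ ∞ fun x => (P x j₀ j₀).re :=
  re_s (hP j₀ j₀)

theorem smC_sum {ι : Type*} (t : Finset ι) {P : ι → MC n N} (hP : ∀ i, SmC (P i)) :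
    SmC fun x => ∑ i ∈ t, P i x := by
  intro a b
  have : (fun x => (∑ i ∈ t, P i x) a b) = fun x => ∑ i ∈ t, P i x a b := by
    funext x
    rw [Matrix.sum_apply]
  rw [this]
  exact ContDiff.sum fun i _ => hP i a b

theorem smC_smul {s : V n → ℝ} (hs : ContDiff ℝ ∞ s) {P : MC n N} (hP : SmC P) :
    SmC fun x => (s x : ℂ) • P x := by
  intro a b
  have : (fun x => ((s x : ℂ) • P x) a b) = fun x => (s x : ℂ) * P x a b := rfl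
  rw [this]
  exact (Complex.ofRealCLM.contDiff.comp hs).mul (hP a b)

theorem smC_sub {P Q : MC n N} (hP : SmC P) (hQ : SmC Q) : SmC fun x => P x - Q x :=
  fun a b => (hP a b).sub (hQ a b)

theorem smC_pdm {P : MC n N} (hP : SmC P) (i : Fin n) : SmC (pdm i P) := fun a b => cdp (hP a b) i

theorem smC_TP {s : MF n} (hs : SmM s) {P : MC n N} (hP : SmC P) (i j : Fin n) : SmC (TP s P i j) :=
  smC_smul (hs i j) hP

theorem smC_kp {s : MF n} (hs : SmM s) {G : Fin n → MC n N} (hG : ∀ i, SmC (G i)) (i : Fin n) :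
    SmC (kp s G i) := smC_sum _ fun j => smC_smul (hs i j) (hG j)

theorem nq_s {P : MC n N} (hP : SmC P) : Continuous fun x => nq (P x) :=
  continuous_finsetSum _ fun a _ => continuous_finsetSum _ fun b _ => (hP a b).continuous.norm.pow 2

section

variable {k : ℕ} {δ : ℝ} {O K : Set (V n)} {j₀ : Fin N} {s₁ s₂ : MF n} {P₁ P₂ : MC n N}
    {G₁ G₂ β Y D : Fin n → MC n N} {Γ : Fin n → Fin n → MC n N}

theorem fA_s (h : RL k δ O K j₀ s₁ s₂ P₁ P₂ G₁ G₂ β Y D) (j b : Fin n) :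
    ContDiff ℝ ∞ (fA j₀ s₁ s₂ P₁ P₂ j b) :=
  tr_s (smC_sub (smC_TP h.d₂.ss h.d₂.sP j b) (smC_TP h.d₁.ss h.d₁.sP j b)) j₀

theorem fE_s (h : RL k δ O K j₀ s₁ s₂ P₁ P₂ G₁ G₂ β Y D) (hΓ : IG k δ Y Γ) (i b : Fin n) :
    ContDiff ℝ ∞ (fE j₀ s₂ P₂ D Γ i b) :=
  tr_s (smC_sum _ fun j => smC_sum _ fun a =>
    SmC_mul (SmC_mul (smC_TP h.d₂.ss h.d₂.sP i j) (smC_pdm (h.sD a) j)) (hΓ.sm a b)) j₀

/-! ### values of the coefficients -/

theorem s_abs (h : RL k δ O K j₀ s₁ s₂ P₁ P₂ G₁ G₂ β Y D) (hδ : δ ≤ 1) (i j : Fin n) (x : V n) :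
    |s₁ x i j| ≤ 2 ∧ |s₂ x i j| ≤ 2 := by
  have h1 := cl_norm (h.d₁.cs i j) x
  have h2 := cl_norm (h.d₂.cs i j) x
  rw [Real.norm_eq_abs] at h1 h2
  have h3 : |(1 : Matrix (Fin n) (Fin n) ℝ) i j| ≤ 1 := by
    rw [Matrix.one_apply]; split_ifs <;> simp
  have e1 : s₁ x i j = (s₁ x i j - (1 : Matrix (Fin n) (Fin n) ℝ) i j) +
    (1 : Matrix (Fin n) (Fin n) ℝ) i j := by ring
  have e2 : s₂ x i j = (s₂ x i j - (1 : Matrix (Fin n) (Fin n) ℝ) i j) +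
    (1 : Matrix (Fin n) (Fin n) ℝ) i j := by ring
  constructor
  · rw [e1]; exact (abs_add_le _ _).trans (by linarith)
  · rw [e2]; exact (abs_add_le _ _).trans (by linarith)

theorem one_ent (a b : Fin N) : ‖(1 : Matrix (Fin N) (Fin N) ℂ) a b‖ ≤ 1 := by
  rw [Matrix.one_apply]; split_ifs <;> simp

theorem P_ent {P : MC n N} (h : ClC k δ (fun x => P x - 1)) (hδ : δ ≤ 1) (x : V n) (a b : Fin N) :
    ‖P x a b‖ ≤ 2 := by
  have h1 := cl_norm (h a b) x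
  have h3 := one_ent (N := N) a b
  have e1 : P x a b = (P x - 1) a b + (1 : Matrix (Fin N) (Fin N) ℂ) a b := by
    rw [Matrix.sub_apply]; ring
  rw [e1]
  exact (norm_add_le _ _).trans (by linarith)

theorem P_fr {P : MC n N} (h : ClC k δ (fun x => P x - 1)) (hδ : δ ≤ 1) (x : V n) :
    fr (P x) ≤ N * 2 := fr_le (by norm_num) fun a b => P_ent h hδ x a b

theorem one_le_N (j₀ : Fin N) : (1 : ℝ) ≤ N := by
  exact_mod_cast (Nat.succ_le_of_lt (Fin.pos j₀))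

theorem P_tr {P : MC n N} (h : ClC k δ (fun x => P x - 1)) (hδ : δ ≤ 1) (j₀ : Fin N) (x : V n) :
    |(P x j₀ j₀).re| ≤ N * 2 := by
  refine (Complex.abs_re_le_norm _).trans ((P_ent h hδ x j₀ j₀).trans ?_)
  have := one_le_N j₀
  linarith

theorem T_fr (h : RL k δ O K j₀ s₁ s₂ P₁ P₂ G₁ G₂ β Y D) (hδ : δ ≤ 1) (i j : Fin n) (x : V n) :
    fr (TP s₂ P₂ i j x) ≤ 4 * N := by
  unfold TP
  rw [fr_smul, Complex.norm_real, Real.norm_eq_abs]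
  have h1 := (s_abs h hδ i j x).2
  have h2 := P_fr h.d₂.cP hδ x
  have h3 := mul_le_mul h1 h2 (fr_nonneg _) (by norm_num)
  linarith

theorem k_fr (h : RL k δ O K j₀ s₁ s₂ P₁ P₂ G₁ G₂ β Y D) (hδ : δ ≤ 1) (i : Fin n) (x : V n) :
    fr (kp s₂ G₂ i x) ≤ 2 * n * N := by
  unfold kp
  refine (fr_sum _ _).trans ?_
  calc ∑ j, fr ((s₂ x i j : ℂ) • G₂ j x) ≤ ∑ _j : Fin n, 2 * ((N : ℝ) * 1) := by
        refine Finset.sum_le_sum fun j _ => ?_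
        rw [fr_smul, Complex.norm_real, Real.norm_eq_abs]
        have h1 := (s_abs h hδ i j x).2
        have h2 : fr (G₂ j x) ≤ N * 1 := fr_le (by norm_num) fun a b =>
          (cl_norm (h.d₂.cG j a b) x).trans hδ
        exact mul_le_mul h1 h2 (fr_nonneg _) (by norm_num)
    _ = 2 * n * N := by simp; ring

theorem Γ_fr (hΓ : IG k δ Y Γ) (hδ : δ ≤ 1) (a b : Fin n) (x : V n) : fr (Γ a b x) ≤ N * 2 := by
  refine fr_le (by norm_num) fun c d => ?_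
  have h1 := cl_norm (hΓ.cl a b c d) x
  have e1 : Γ a b x c d = (Γ a b x - if a = b then 1 else 0) c d +
      (if a = b then (1 : Matrix (Fin N) (Fin N) ℂ) else 0) c d := by
    rw [Matrix.sub_apply]; ring
  rw [e1]
  refine (norm_add_le _ _).trans ?_
  have h2 : ‖(if a = b then (1 : Matrix (Fin N) (Fin N) ℂ) else 0) c d‖ ≤ 1 := by
    split_ifs
    · exact one_ent c d
    · simp
  linarith

theorem pd_subC {f : V n → ℂ} (c : ℂ) (i : Fin n) : pd i (fun y => f y - c) = pd i f := by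
  funext x
  unfold pd
  rw [fderiv_sub_const]

theorem dΓ_fr (hΓ : IG k δ Y Γ) (hk : 1 ≤ k) (hδ : δ ≤ 1) (i a b : Fin n) (x : V n) :
    fr (pdm i (Γ a b) x) ≤ N * 1 := by
  refine fr_le (by norm_num) fun c d => ?_
  have h0 : ContDiff ℝ ∞ fun y => (Γ a b y - if a = b then 1 else 0) c d :=
    (hΓ.sm a b c d).sub contDiff_const
  have h1 := cl_norm (cl_pd (k := 0) h0 (cl_mono (hΓ.cl a b c d) hk le_rfl) i) x
  have h2 : (fun y => (Γ a b y - if a = b then 1 else 0) c d) = fun y => Γ a b y c d -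
      (if a = b then (1 : Matrix (Fin N) (Fin N) ℂ) else 0) c d := rfl
  rw [h2, pd_subC] at h1
  exact h1.trans hδ

theorem dY_fr (h : RL k δ O K j₀ s₁ s₂ P₁ P₂ G₁ G₂ β Y D) (hk : 1 ≤ k) (hδ : δ ≤ 1) (i a : Fin n)
    (x : V n) : fr (pdm i (Y a) x) ≤ N * 2 := by
  refine fr_le (by norm_num) fun c d => ?_
  have hx : ContDiff ℝ ∞ fun y : V n => ((y a : ℝ) : ℂ) * (1 : Matrix (Fin N) (Fin N) ℂ) c d :=
    (Complex.ofRealCLM.contDiff.comp (contDiff_apply ℝ ℝ a)).mul contDiff_const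
  have h0 : ContDiff ℝ ∞ fun y => (Y a y - (y a : ℂ) • (1 : Matrix (Fin N) (Fin N) ℂ)) c d :=
    (h.sY a c d).sub hx
  have h1 := cl_norm (cl_pd (k := 0) h0 (cl_mono (h.cY a c d) hk le_rfl) i) x
  have e1 : (fun y => (Y a y - (y a : ℂ) • (1 : Matrix (Fin N) (Fin N) ℂ)) c d) =
      fun y => Y a y c d - ((y a : ℝ) : ℂ) * (1 : Matrix (Fin N) (Fin N) ℂ) c d := rfl
  rw [e1, pd_sub (dfa (h.sY a c d) x) (dfa hx x) i] at h1
  have h2 : ‖pd i (fun y : V n => ((y a : ℝ) : ℂ) * (1 : Matrix (Fin N) (Fin N) ℂ) c d) x‖ ≤ 1 := by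
    have h4 : HasFDerivAt (fun y : V n => ((y a : ℝ) : ℂ))
        (Complex.ofRealCLM.comp (ContinuousLinearMap.proj (R := ℝ) (φ := fun _ : Fin n => ℝ) a)) x :=
      (Complex.ofRealCLM.comp
        (ContinuousLinearMap.proj (R := ℝ) (φ := fun _ : Fin n => ℝ) a)).hasFDerivAt
    have h3 := h4.mul_const ((1 : Matrix (Fin N) (Fin N) ℂ) c d)
    unfold pd
    rw [h3.fderiv]
    have h6 : ‖((Pi.single i 1 : V n) a : ℝ)‖ ≤ 1 := by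
      rw [Pi.single_apply]; split_ifs <;> simp
    simp only [_root_.smul_apply, smul_eq_mul, norm_mul]
    have h7 := one_ent (N := N) c d
    have h8 : ‖(Complex.ofRealCLM.comp (ContinuousLinearMap.proj (R := ℝ)
        (φ := fun _ : Fin n => ℝ) a)) (Pi.single i 1)‖ ≤ 1 := by
      show ‖(((Pi.single i 1 : V n) a : ℝ) : ℂ)‖ ≤ 1
      rw [Complex.norm_real]
      exact h6
    exact mul_le_one₀ h7 (norm_nonneg _) h8
  have h5 : (pdm i (Y a) x) c d = pd i (fun y => Y a y c d) x := rfl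
  rw [h5]
  have e2 : pd i (fun y => Y a y c d) x = (pd i (fun y => Y a y c d) x -
      pd i (fun y : V n => ((y a : ℝ) : ℂ) * (1 : Matrix (Fin N) (Fin N) ℂ) c d) x) +
      pd i (fun y : V n => ((y a : ℝ) : ℂ) * (1 : Matrix (Fin N) (Fin N) ℂ) c d) x := by ring
  rw [e2]
  exact (norm_add_le _ _).trans (by linarith)

/-! ### bounds -/

theorem tr3 (j₀ : Fin N) (A B C : Matrix (Fin N) (Fin N) ℂ) :
    |((A * B * C) j₀ j₀).re| ≤ fr A * fr B * fr C := by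
  refine (Complex.abs_re_le_norm _).trans ((entry_le _ _ _).trans ((fr_mul _ _).trans ?_))
  exact mul_le_mul_of_nonneg_right (fr_mul A B) (fr_nonneg C)

theorem tr3_le {j₀ : Fin N} {A B C : Matrix (Fin N) (Fin N) ℂ} {a b c : ℝ} (ha : fr A ≤ a)
    (hb : fr B ≤ b) (hc : fr C ≤ c) : |((A * B * C) j₀ j₀).re| ≤ a * b * c :=
  (tr3 j₀ A B C).trans (mul_le_mul (mul_le_mul ha hb (fr_nonneg _) ((fr_nonneg _).trans ha)) hc
    (fr_nonneg _) (mul_nonneg ((fr_nonneg _).trans ha) ((fr_nonneg _).trans hb)))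

theorem re_sum {ι : Type*} {j₀ : Fin N} (t : Finset ι) (A : ι → Matrix (Fin N) (Fin N) ℂ)
    {f : ι → ℝ} (h : ∀ i ∈ t, |((A i) j₀ j₀).re| ≤ f i) :
    |((∑ i ∈ t, A i) j₀ j₀).re| ≤ ∑ i ∈ t, f i := by
  rw [Matrix.sum_apply, Complex.re_sum]
  exact (Finset.abs_sum_le_sum_abs _ _).trans (Finset.sum_le_sum h)

/-- `∑ |∂_i D_a|`. -/
def Sd (D : Fin n → MC n N) (x : V n) : ℝ := ∑ a, ∑ i, fr (pdm i (D a) x)

/-- `∑ |Z_ji|`. -/
def Hz (s₁ s₂ : MF n) (P₁ P₂ : MC n N) (x : V n) : ℝ := ∑ i, ∑ j, fr (Zt s₁ s₂ P₁ P₂ j i x)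

theorem Sd_nn (D : Fin n → MC n N) (x : V n) : 0 ≤ Sd D x :=
  Finset.sum_nonneg fun _ _ => Finset.sum_nonneg fun _ _ => fr_nonneg _

theorem Hz_nn (s₁ s₂ : MF n) (P₁ P₂ : MC n N) (x : V n) : 0 ≤ Hz s₁ s₂ P₁ P₂ x :=
  Finset.sum_nonneg fun _ _ => Finset.sum_nonneg fun _ _ => fr_nonneg _

theorem sum2_sq (f : Fin n → Fin n → ℝ) : (∑ i, ∑ j, f i j) ^ 2 ≤ n ^ 2 * ∑ i, ∑ j, f i j ^ 2 := by
  have h := cs3 (fun _ _ : Fin n => (1 : ℝ)) f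
  simp only [one_mul] at h
  have e : ∑ _i : Fin n, ∑ _j : Fin n, (1 : ℝ) ^ 2 = n ^ 2 := by
    simp only [one_pow, Finset.sum_const, Finset.card_univ, Fintype.card_fin, nsmul_eq_mul, mul_one]
    ring
  rwa [e] at h

theorem Sd_sq (D : Fin n → MC n N) (x : V n) : Sd D x ^ 2 ≤ n ^ 2 * d1 D x := by
  refine (sum2_sq _).trans (le_of_eq ?_)
  simp only [fr_sq]
  rfl

theorem d1_nn (D : Fin n → MC n N) (x : V n) : 0 ≤ d1 D x :=
  Finset.sum_nonneg fun _ _ => Finset.sum_nonneg fun _ _ => nq_nonneg _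

theorem d0_nn (D : Fin n → MC n N) (x : V n) : 0 ≤ d0 D x :=
  Finset.sum_nonneg fun _ _ => nq_nonneg _

theorem hh_nn (s₁ s₂ : MF n) (x : V n) : 0 ≤ hh s₁ s₂ x :=
  Finset.sum_nonneg fun _ _ => Finset.sum_nonneg fun _ _ => sq_nonneg _

theorem h0_nn (s₁ s₂ : MF n) (x : V n) : 0 ≤ h0 s₁ s₂ x :=
  Finset.sum_nonneg fun _ _ => Finset.sum_nonneg fun _ _ => sq_nonneg _

theorem Zt_nq (h : RL k δ O K j₀ s₁ s₂ P₁ P₂ G₁ G₂ β Y D) (hδ : δ ≤ 1) (j i : Fin n) (x : V n) :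
    nq (Zt s₁ s₂ P₁ P₂ j i x) ≤ 8 * (N : ℝ) ^ 2 * (s₂ x j i - s₁ x j i) ^ 2 + 8 * nq (P₂ x - P₁ x) := by
  have e : Zt s₁ s₂ P₁ P₂ j i x = ((s₂ x j i - s₁ x j i : ℝ) : ℂ) • P₂ x +
      (s₁ x j i : ℂ) • (P₂ x - P₁ x) := by
    unfold Zt TP
    push_cast
    module
  have h1 := (s_abs h hδ j i x).1
  have h2 := P_fr h.d₂.cP hδ x
  have h3 : fr (Zt s₁ s₂ P₁ P₂ j i x) ≤ |s₂ x j i - s₁ x j i| * (N * 2) + 2 * fr (P₂ x - P₁ x) := by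
    rw [e]
    refine (fr_add _ _).trans ?_
    rw [fr_smul, fr_smul, Complex.norm_real, Complex.norm_real, Real.norm_eq_abs, Real.norm_eq_abs]
    exact add_le_add (mul_le_mul_of_nonneg_left h2 (abs_nonneg _))
      (mul_le_mul_of_nonneg_right h1 (fr_nonneg _))
  rw [← fr_sq, ← fr_sq (P₂ x - P₁ x)]
  refine (pow_le_pow_left₀ (fr_nonneg _) h3 2).trans ?_
  have h4 := sq_abs (s₂ x j i - s₁ x j i)
  have h5 := sq_nonneg (|s₂ x j i - s₁ x j i| * (N * 2) - 2 * fr (P₂ x - P₁ x))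
  nlinarith

theorem Hz_sq (h : RL k δ O K j₀ s₁ s₂ P₁ P₂ G₁ G₂ β Y D) (hδ : δ ≤ 1) (x : V n) :
    Hz s₁ s₂ P₁ P₂ x ^ 2 ≤ 8 * ((n : ℝ) ^ 2 * N ^ 2 + n ^ 4) * (hh s₁ s₂ x + nq (P₂ x - P₁ x)) := by
  refine (sum2_sq _).trans ?_
  simp only [fr_sq]
  have h1 : ∑ i, ∑ j, nq (Zt s₁ s₂ P₁ P₂ j i x) ≤
      8 * (N : ℝ) ^ 2 * hh s₁ s₂ x + 8 * n ^ 2 * nq (P₂ x - P₁ x) := by
    calc ∑ i, ∑ j, nq (Zt s₁ s₂ P₁ P₂ j i x) ≤
        ∑ i : Fin n, ∑ j : Fin n, (8 * (N : ℝ) ^ 2 * (s₂ x j i - s₁ x j i) ^ 2 +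
          8 * nq (P₂ x - P₁ x)) :=
          Finset.sum_le_sum fun i _ => Finset.sum_le_sum fun j _ => Zt_nq h hδ j i x
      _ = _ := by
        simp only [Finset.sum_add_distrib, ← Finset.mul_sum, Finset.sum_const, Finset.card_univ,
          Fintype.card_fin, nsmul_eq_mul]
        rw [Finset.sum_comm]
        unfold hh
        ring
  have h2 := hh_nn s₁ s₂ x
  have h3 := nq_nonneg (P₂ x - P₁ x)
  have h4 := mul_le_mul_of_nonneg_left h1 (by positivity : (0 : ℝ) ≤ (n : ℝ) ^ 2)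
  have h5 : 0 ≤ (n : ℝ) ^ 4 * hh s₁ s₂ x := by positivity
  have h6 : 0 ≤ (n : ℝ) ^ 2 * N ^ 2 * nq (P₂ x - P₁ x) := by positivity
  nlinarith

theorem bA (j₀ : Fin N) (s₁ s₂ : MF n) (P₁ P₂ : MC n N) (j b : Fin n) (x : V n) :
    |fA j₀ s₁ s₂ P₁ P₂ j b x| ≤ N * Hz s₁ s₂ P₁ P₂ x := by
  unfold fA
  have h1 : |(Zt s₁ s₂ P₁ P₂ j b x j₀ j₀).re| ≤ Hz s₁ s₂ P₁ P₂ x := by
    refine (Complex.abs_re_le_norm _).trans ((entry_le _ _ _).trans ?_)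
    unfold Hz
    refine le_trans ?_ (Finset.single_le_sum (f := fun i => ∑ j, fr (Zt s₁ s₂ P₁ P₂ j i x))
      (fun i _ => Finset.sum_nonneg fun _ _ => fr_nonneg _) (Finset.mem_univ b))
    exact Finset.single_le_sum (f := fun j => fr (Zt s₁ s₂ P₁ P₂ j b x))
      (fun _ _ => fr_nonneg _) (Finset.mem_univ j)
  have h2 := one_le_N j₀
  have h3 := Hz_nn s₁ s₂ P₁ P₂ x
  nlinarith

theorem bE (h : RL k δ O K j₀ s₁ s₂ P₁ P₂ G₁ G₂ β Y D) (hΓ : IG k δ Y Γ) (hδ : δ ≤ 1) (i b : Fin n)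
    (x : V n) : |fE j₀ s₂ P₂ D Γ i b x| ≤ 8 * (N : ℝ) ^ 2 * Sd D x := by
  unfold fE
  refine (re_sum _ _ fun j _ => re_sum _ _ fun a _ =>
    tr3_le (T_fr h hδ i j x) le_rfl (Γ_fr hΓ hδ a b x)).trans (le_of_eq ?_)
  unfold Sd
  rw [Finset.sum_comm, Finset.mul_sum]
  refine Finset.sum_congr rfl fun a _ => ?_
  rw [Finset.mul_sum]
  exact Finset.sum_congr rfl fun j _ => by ring

theorem bR (h : RL k δ O K j₀ s₁ s₂ P₁ P₂ G₁ G₂ β Y D) (hΓ : IG k δ Y Γ) (hk : 1 ≤ k) (hδ : δ ≤ 1)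
    (b : Fin n) (x : V n) : |fR j₀ s₁ s₂ P₁ P₂ G₂ Y D Γ b x| ≤
      8 * n * (N : ℝ) ^ 2 * (Hz s₁ s₂ P₁ P₂ x + Sd D x) := by
  have h1 : |((∑ i, ∑ j, ∑ a, Zt s₁ s₂ P₁ P₂ j i x * pdm i (Y a) x * pdm j (Γ a b) x) j₀ j₀).re| ≤
      2 * n * (N : ℝ) ^ 2 * Hz s₁ s₂ P₁ P₂ x := by
    refine (re_sum _ _ fun i _ => re_sum _ _ fun j _ => re_sum _ _ fun a _ =>
      tr3_le le_rfl (dY_fr h hk hδ i a x) (dΓ_fr hΓ hk hδ j a b x)).trans (le_of_eq ?_)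
    unfold Hz
    rw [Finset.mul_sum]
    refine Finset.sum_congr rfl fun i _ => ?_
    rw [Finset.mul_sum]
    refine Finset.sum_congr rfl fun j _ => ?_
    simp
    ring
  have h2 : |((∑ i, ∑ j, ∑ a, TP s₂ P₂ i j x * pdm j (D a) x * pdm i (Γ a b) x) j₀ j₀).re| ≤
      4 * n * (N : ℝ) ^ 2 * Sd D x := by
    refine (re_sum _ _ fun i _ => re_sum _ _ fun j _ => re_sum _ _ fun a _ =>
      tr3_le (T_fr h hδ i j x) le_rfl (dΓ_fr hΓ hk hδ i a b x)).trans (le_of_eq ?_)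
    unfold Sd
    have e : ∀ _i : Fin n, ∑ j, ∑ a, 4 * (N : ℝ) * fr (pdm j (D a) x) * (N * 1) =
        4 * (N : ℝ) ^ 2 * ∑ a, ∑ j, fr (pdm j (D a) x) := fun _ => by
      rw [Finset.sum_comm, Finset.mul_sum]
      refine Finset.sum_congr rfl fun a _ => ?_
      rw [Finset.mul_sum]
      exact Finset.sum_congr rfl fun j _ => by ring
    rw [Finset.sum_congr rfl fun i _ => e i]
    simp
    ring
  have h3 : |((∑ i, ∑ a, kp s₂ G₂ i x * pdm i (D a) x * Γ a b x) j₀ j₀).re| ≤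
      4 * n * (N : ℝ) ^ 2 * Sd D x := by
    refine (re_sum _ _ fun i _ => re_sum _ _ fun a _ =>
      tr3_le (k_fr h hδ i x) le_rfl (Γ_fr hΓ hδ a b x)).trans (le_of_eq ?_)
    unfold Sd
    rw [Finset.sum_comm, Finset.mul_sum]
    refine Finset.sum_congr rfl fun a _ => ?_
    rw [Finset.mul_sum]
    exact Finset.sum_congr rfl fun j _ => by ring
  unfold fR
  have h4 := Hz_nn s₁ s₂ P₁ P₂ x
  have h5 : 0 ≤ n * (N : ℝ) ^ 2 * Hz s₁ s₂ P₁ P₂ x := by positivity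
  refine (abs_sub _ _).trans ?_
  have h6 := abs_add_le ((∑ i, ∑ j, ∑ a, Zt s₁ s₂ P₁ P₂ j i x * pdm i (Y a) x *
    pdm j (Γ a b) x) j₀ j₀).re ((∑ i, ∑ j, ∑ a, TP s₂ P₂ i j x * pdm j (D a) x *
    pdm i (Γ a b) x) j₀ j₀).re
  nlinarith

end

end Vale.Agent.P088.S4.H999
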