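import Vale.Agent.P088.R2.H238.S3.Tfrw
import Vale.Agent.P088.R2.H404.DI

/-!
# P088, stage 4: weighted interior estimates for `∑ ∂_i (s_ij ∂_j w) = F`
-/

open MeasureTheory Set
open scoped ContDiff Matrix Topology

noncomputable section

namespace Vale.Agent.P088.S4.H999

open Vale.Agent.P088.LR Vale.Agent.P088.HY
open Vale.Agent.P088.R2.H404 (Ld fl)
open Vale.Agent.P088.R2.H238.S3

variable {n : ℕ}

/-- `∑_i ∂_i s_ij`. -/
def dv (s : MF n) (j : Fin n) (x : V n) : ℝ := ∑ i, pd i (fun y => s y i j) x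

theorem fl_s {s : MF n} (hs : SmM s) {f : V n → ℝ} (hf : ContDiff ℝ ∞ f) (i : Fin n) :
    ContDiff ℝ ∞ (fl s f i) :=
  ContDiff.sum fun j _ => (hs i j).mul (cp hf j)

theorem Ld_s {s : MF n} (hs : SmM s) {f : V n → ℝ} (hf : ContDiff ℝ ∞ f) :
    ContDiff ℝ ∞ (Ld s f) :=
  ContDiff.sum fun i _ => cp (fl_s hs hf i) i

theorem pd_fl {s : MF n} (hs : SmM s) {f : V n → ℝ} (hf : ContDiff ℝ ∞ f) (i : Fin n) (x : V n) :
    pd i (fl s f i) x = ∑ j, (pd i (fun y => s y i j) x * pd j f x + s x i j * pd i (pd j f) x) := by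
  have h : fl s f i = fun y => ∑ j, s y i j * pd j f y := rfl
  rw [h, psum (fun j => (hs i j).mul (cp hf j)) i x]
  exact Finset.sum_congr rfl fun j _ => pmul (hs i j) (cp hf j) i x

theorem Ld_eq {s : MF n} (hs : SmM s) {f : V n → ℝ} (hf : ContDiff ℝ ∞ f) (x : V n) :
    Ld s f x = (∑ j, dv s j x * pd j f x) + Lv s f x := by
  have h : Ld s f x = ∑ i, pd i (fl s f i) x := rfl
  rw [h]
  simp only [pd_fl hs hf, Finset.sum_add_distrib]
  congr 1
  rw [Finset.sum_comm]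
  refine Finset.sum_congr rfl fun j _ => ?_
  unfold dv
  rw [Finset.sum_mul]

theorem Ld_loc {U : Set (V n)} (hU : IsOpen U) {f g : V n → ℝ} (h : ∀ x ∈ U, f x = g x) {x : V n}
    (hx : x ∈ U) (s : MF n) : Ld s f x = Ld s g x := by
  unfold Ld
  refine Finset.sum_congr rfl fun i _ => pd_loc hU (fun y hy => ?_) hx i
  unfold fl
  exact Finset.sum_congr rfl fun j _ => by rw [pd_loc hU h hy j]

section

variable {s : MF n} (hs : SmM s) {η w : V n → ℝ} (hη : ContDiff ℝ ∞ η) (hηc : HasCompactSupport η)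
  (hw : ContDiff ℝ ∞ w)

include hs hη hηc hw

theorem en_idD :
    ∫ x, (η x ^ 2 * ∑ i, ∑ j, s x i j * (pd i w x * pd j w x) +
      2 * (η x * w x) * ∑ i, ∑ j, s x i j * (pd i η x * pd j w x) + η x ^ 2 * w x * Ld s w x) = 0 := by
  have hm : ∀ i, ContDiff ℝ ∞ (fl s w i) := fun i => fl_s hs hw i
  have hF : ∀ i, ContDiff ℝ ∞ (fun y => (η y * η y) * (w y * fl s w i y)) := fun i =>
    (hη.mul hη).mul (hw.mul (hm i))
  have hc : ∀ i, HasCompactSupport (fun y => (η y * η y) * (w y * fl s w i y)) :=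
    fun i => HasCompactSupport.intro hηc fun x hx => by
      rw [image_eq_zero_of_notMem_tsupport hx]; ring
  rw [← intdiv hF hc]
  congr 1
  funext x
  have h1 : ∀ i, pd i (fun y => (η y * η y) * (w y * fl s w i y)) x =
      2 * (η x * w x) * (∑ j, s x i j * (pd i η x * pd j w x)) +
      η x ^ 2 * (∑ j, s x i j * (pd i w x * pd j w x)) +
      η x ^ 2 * w x * pd i (fl s w i) x := by
    intro i
    rw [pmul (hη.mul hη) (hw.mul (hm i)) i x, pmul hη hη i x, pmul hw (hm i) i x]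
    have h3 : ∑ j, s x i j * (pd i η x * pd j w x) = pd i η x * fl s w i x := by
      unfold fl
      rw [Finset.mul_sum]; exact Finset.sum_congr rfl fun j _ => by ring
    have h4 : ∑ j, s x i j * (pd i w x * pd j w x) = pd i w x * fl s w i x := by
      unfold fl
      rw [Finset.mul_sum]; exact Finset.sum_congr rfl fun j _ => by ring
    rw [h3, h4]
    ring
  simp only [h1, Finset.sum_add_distrib, ← Finset.mul_sum]
  unfold Ld
  ring

/-- **first Caccioppoli inequality** -/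
theorem cac1D
    (hn : ∀ x ∈ tsupport η, ∀ i j, |s x i j - (1 : Matrix (Fin n) (Fin n) ℝ) i j| ≤
      1 / (8 * (n + 1))) {A : ℝ} (hA : 0 < A) :
    ∫ x, η x ^ 2 * gq w x ≤ ∫ x, (64 * (gq η x * w x ^ 2) + 2 * A * (η x ^ 2 * w x ^ 2) +
      2 * A⁻¹ * (η x ^ 2 * Ld s w x ^ 2)) := by
  have h0 : ∀ x ∉ tsupport η, η x = 0 := fun x hx => image_eq_zero_of_notMem_tsupport hx
  have hg0 : ∀ x ∉ tsupport η, gq η x = 0 := fun x hx =>
    Finset.sum_eq_zero fun i _ => by rw [poff hx]; ring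
  have hLc := (Ld_s hs hw).continuous
  have i1 : Integrable fun x => η x ^ 2 * gq w x :=
    icc ((hη.continuous.pow 2).mul (gq_c hw)) (HasCompactSupport.intro hηc fun x hx => by
      rw [h0 x hx]; ring)
  have i2 : Integrable fun x => 64 * (gq η x * w x ^ 2) + 2 * A * (η x ^ 2 * w x ^ 2) +
      2 * A⁻¹ * (η x ^ 2 * Ld s w x ^ 2) :=
    icc (((continuous_const.mul ((gq_c hη).mul (hw.continuous.pow 2))).add
      (continuous_const.mul ((hη.continuous.pow 2).mul (hw.continuous.pow 2)))).add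
      (continuous_const.mul ((hη.continuous.pow 2).mul (hLc.pow 2))))
      (HasCompactSupport.intro hηc fun x hx => by
      rw [h0 x hx, hg0 x hx]; ring)
  have hE : Continuous fun x => ∑ i, ∑ j, s x i j * (pd i w x * pd j w x) :=
    continuous_finsetSum _ fun i _ => continuous_finsetSum _ fun j _ =>
      (hs i j).continuous.mul ((cp hw i).continuous.mul (cp hw j).continuous)
  have hT : Continuous fun x => ∑ i, ∑ j, s x i j * (pd i η x * pd j w x) :=
    continuous_finsetSum _ fun i _ => continuous_finsetSum _ fun j _ =>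
      (hs i j).continuous.mul ((cp hη i).continuous.mul (cp hw j).continuous)
  have i3 : Integrable fun x => η x ^ 2 * ∑ i, ∑ j, s x i j * (pd i w x * pd j w x) +
      2 * (η x * w x) * ∑ i, ∑ j, s x i j * (pd i η x * pd j w x) + η x ^ 2 * w x * Ld s w x :=
    icc ((((hη.continuous.pow 2).mul hE).add ((continuous_const.mul
      (hη.continuous.mul hw.continuous)).mul hT)).add
      (((hη.continuous.pow 2).mul hw.continuous).mul hLc))
      (HasCompactSupport.intro hηc fun x hx => by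
      rw [h0 x hx]; ring)
  have h1 : ∫ x, η x ^ 2 * gq w x ≤ ∫ x, ((64 * (gq η x * w x ^ 2) + 2 * A * (η x ^ 2 * w x ^ 2) +
      2 * A⁻¹ * (η x ^ 2 * Ld s w x ^ 2)) + 4 *
      (η x ^ 2 * ∑ i, ∑ j, s x i j * (pd i w x * pd j w x) +
      2 * (η x * w x) * ∑ i, ∑ j, s x i j * (pd i η x * pd j w x) + η x ^ 2 * w x * Ld s w x)) := by
    refine integral_mono i1 (i2.add (i3.const_mul 4)) fun x => ?_
    show η x ^ 2 * gq w x ≤ (64 * (gq η x * w x ^ 2) + 2 * A * (η x ^ 2 * w x ^ 2) +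
      2 * A⁻¹ * (η x ^ 2 * Ld s w x ^ 2)) + 4 *
      (η x ^ 2 * ∑ i, ∑ j, s x i j * (pd i w x * pd j w x) +
      2 * (η x * w x) * ∑ i, ∑ j, s x i j * (pd i η x * pd j w x) + η x ^ 2 * w x * Ld s w x)
    by_cases hx : x ∈ tsupport η
    · have e1 := ell (hn x hx) (fun i => pd i w x)
      have e2 := elb (hn x hx) (fun i => pd i η x) (fun i => pd i w x)
      have g1 : ∑ i, pd i w x ^ 2 = gq w x := rfl
      have g2 : ∑ i, pd i η x ^ 2 = gq η x := rfl
      rw [g1] at e1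
      rw [g1, g2] at e2
      set T := ∑ i, ∑ j, s x i j * (pd i η x * pd j w x)
      set E := ∑ i, ∑ j, s x i j * (pd i w x * pd j w x)
      set L := Ld s w x
      have n1 := gq_nn w x
      have n2 := gq_nn η x
      have p1 : |2 * (η x * w x) * T| ≤ 1 / 4 * (η x ^ 2 * gq w x) + 16 * (gq η x * w x ^ 2) := by
        refine abs_le_of_sq_le_sq ?_ (by positivity)
        have q1 : (η x * w x) ^ 2 * T ^ 2 ≤ (η x * w x) ^ 2 * (4 * (gq η x * gq w x)) :=
          mul_le_mul_of_nonneg_left e2 (sq_nonneg _)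
        nlinarith [sq_nonneg (1 / 4 * (η x ^ 2 * gq w x) - 16 * (gq η x * w x ^ 2))]
      have p2 : -(η x ^ 2 * w x * L) ≤ 1 / 2 * (A * (η x ^ 2 * w x ^ 2) +
          A⁻¹ * (η x ^ 2 * L ^ 2)) := by
        have q2 : 0 ≤ A⁻¹ * (η x * (A * w x + L)) ^ 2 := by positivity
        have q3 : A⁻¹ * (η x * (A * w x + L)) ^ 2 = A * (η x ^ 2 * w x ^ 2) +
            A⁻¹ * (η x ^ 2 * L ^ 2) + 2 * (η x ^ 2 * w x * L) := by
          field_simp
          ring
        linarith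
      have p3 := neg_le_of_abs_le p1
      have p4 : η x ^ 2 * (1 / 2 * gq w x) ≤ η x ^ 2 * E :=
        mul_le_mul_of_nonneg_left e1 (sq_nonneg _)
      nlinarith
    · rw [h0 x hx, hg0 x hx]
      simp
  rw [integral_add i2 (i3.const_mul 4), integral_const_mul, en_idD hs hη hηc hw] at h1
  linarith

/-- **second Caccioppoli inequality** -/
theorem cac2D (hn : ∀ x ∈ tsupport η, ∀ i j, |s x i j - (1 : Matrix (Fin n) (Fin n) ℝ) i j| ≤
      1 / (8 * (n + 1))) (hb : ∀ x ∈ tsupport η, ∑ j, dv s j x ^ 2 ≤ 1) :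
    ∫ x, η x ^ 2 * hq w x ≤ ∫ x, (12 * (η x ^ 2 * Ld s w x ^ 2) + 12 * (η x ^ 2 * gq w x) +
      8 * (gq η x * gq w x)) := by
  refine (cac2 hs hη hηc hw hn).trans ?_
  have h0 : ∀ x ∉ tsupport η, η x = 0 := fun x hx => image_eq_zero_of_notMem_tsupport hx
  have hg0 : ∀ x ∉ tsupport η, gq η x = 0 := fun x hx =>
    Finset.sum_eq_zero fun i _ => by rw [poff hx]; ring
  have hLc := (Lv_c hs hw).continuous
  have hDc := (Ld_s hs hw).continuous
  refine integral_mono (icc ?_ (HasCompactSupport.intro hηc fun x hx => by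
      rw [h0 x hx, hg0 x hx]; ring)) (icc ?_ (HasCompactSupport.intro hηc fun x hx => by
      rw [h0 x hx, hg0 x hx]; ring)) fun x => ?_
  · exact (continuous_const.mul ((hη.continuous.pow 2).mul (hLc.pow 2))).add
      (continuous_const.mul ((gq_c hη).mul (gq_c hw)))
  · exact ((continuous_const.mul ((hη.continuous.pow 2).mul (hDc.pow 2))).add
      (continuous_const.mul ((hη.continuous.pow 2).mul (gq_c hw)))).add
      (continuous_const.mul ((gq_c hη).mul (gq_c hw)))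
  · show 6 * (η x ^ 2 * Lv s w x ^ 2) + 8 * (gq η x * gq w x) ≤
      12 * (η x ^ 2 * Ld s w x ^ 2) + 12 * (η x ^ 2 * gq w x) + 8 * (gq η x * gq w x)
    by_cases hx : x ∈ tsupport η
    · have e1 := Finset.sum_mul_sq_le_sq_mul_sq Finset.univ (fun j => dv s j x)
        (fun j => pd j w x)
      have g1 : ∑ i, pd i w x ^ 2 = gq w x := rfl
      rw [g1] at e1
      have e2 := Ld_eq hs hw x
      set T := ∑ j, dv s j x * pd j w x
      have n1 := gq_nn w x
      have e3 : T ^ 2 ≤ gq w x := by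
        refine e1.trans ?_
        have := mul_le_mul_of_nonneg_right (hb x hx) n1
        linarith
      have e4 : Lv s w x = Ld s w x - T := by linarith
      have e5 : Lv s w x ^ 2 ≤ 2 * Ld s w x ^ 2 + 2 * gq w x := by
        rw [e4]
        nlinarith [sq_nonneg (Ld s w x + T)]
      have e6 := mul_le_mul_of_nonneg_left e5 (sq_nonneg (η x))
      nlinarith
    · rw [h0 x hx, hg0 x hx]
      simp

end

/-- The weighted interior estimate: `∇w` and `∇²w` from `w` and `F`, `W` is equal to `w` near the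
supports of the cut-offs. -/
theorem wintD {O : Set (V n)} (hO : IsOpen O) {s : MF n} (hs : SmM s) {G : V n → ℝ}
    (hG : ContDiff ℝ ∞ G) {ρ M κ : ℝ} (hρ : 1 ≤ ρ) {χ χ₁ χ₂ : V n → ℝ} (hc : Cu O ρ χ χ₁ χ₂)
    (hn : ∀ x ∈ O, ∀ i j, |s x i j - (1 : Matrix (Fin n) (Fin n) ℝ) i j| ≤ 1 / (8 * (n + 1)))
    (hb : ∀ x ∈ O, ∑ j, dv s j x ^ 2 ≤ 1)
    (hM : ∀ x ∈ O, ∀ k, |pd k G x| ≤ M) {w F : V n → ℝ} (hw : ContDiffOn ℝ ∞ w O)
    (hF : ContDiff ℝ ∞ F) (hFc : HasCompactSupport F) (he : ∀ x ∈ O, Ld s w x = F x)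
    (hi : IntegrableOn (fun x => w x ^ 2 * Real.exp (-(2 * ρ * G x))) O)
    (hk : ∫ x in O, w x ^ 2 * Real.exp (-(2 * ρ * G x)) ≤
      κ ^ 2 * ∫ x, F x ^ 2 * Real.exp (-(2 * ρ * G x))) :
    ∃ W : V n → ℝ, ContDiff ℝ ∞ W ∧ (∀ x ∈ tsupport χ₂, Ld s W x = F x) ∧
      ∫ x, (χ₂ x * Ew ρ G x) ^ 2 * gq W x ≤ (130 * (n + 1) * (ρ ^ 2 * (1 + M ^ 2) * κ ^ 2 +
        (ρ ^ 2)⁻¹)) * ∫ x, F x ^ 2 * Real.exp (-(2 * ρ * G x)) ∧
      ∫ x, (χ₁ x * Ew ρ G x) ^ 2 * hq W x ≤ (12 + (12 + 16 * n * (ρ ^ 2 * (1 + M ^ 2))) *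
        (130 * (n + 1) * (ρ ^ 2 * (1 + M ^ 2) * κ ^ 2 + (ρ ^ 2)⁻¹))) *
        ∫ x, F x ^ 2 * Real.exp (-(2 * ρ * G x)) := by
  have hρ0 : 0 < ρ := by linarith
  obtain ⟨χ₃, U, h3s, h3t, hU, hKU, h31, h3b⟩ := ex_cut (isClosed_tsupport χ₂) hO hc.o2
  obtain ⟨W, hW⟩ : ∃ W : V n → ℝ, W = fun x => χ₃ x * w x := ⟨_, rfl⟩
  have hWs : ContDiff ℝ ∞ W := by rw [hW]; exact smx hO h3s h3t hw
  have hWU : ∀ x ∈ U, W x = w x := fun x hx => by rw [hW]; simp only [h31 x hx, one_mul]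
  have hUO : ∀ x ∈ U ∩ O, W x = w x := fun x hx => hWU x hx.1
  have hWL : ∀ x ∈ tsupport χ₂, Ld s W x = F x := fun x hx => by
    rw [Ld_loc (hU.inter hO) hUO ⟨hKU hx, hc.o2 hx⟩, he x (hc.o2 hx)]
  obtain ⟨N2, hN2⟩ : ∃ N2 : ℝ, N2 = ∫ x, F x ^ 2 * Real.exp (-(2 * ρ * G x)) := ⟨_, rfl⟩
  have hEs : ContDiff ℝ ∞ (Ew ρ G) := Ew_s hG
  have hFi : Integrable fun x => F x ^ 2 * Real.exp (-(2 * ρ * G x)) :=
    icc ((hF.continuous.pow 2).mul (Real.continuous_exp.comp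
      (continuous_const.mul hG.continuous).neg)) (HasCompactSupport.intro hFc fun x hx => by
      rw [image_eq_zero_of_notMem_tsupport hx]; ring)
  have hN0 : 0 ≤ N2 := by
    rw [hN2]; exact integral_nonneg fun x => by positivity
  have hM0 : 0 ≤ 1 + M ^ 2 := by positivity
  have hwi : Integrable (O.indicator fun x => w x ^ 2 * Real.exp (-(2 * ρ * G x))) :=
    hi.integrable_indicator hO.measurableSet
  have hwe : ∫ x, O.indicator (fun x => w x ^ 2 * Real.exp (-(2 * ρ * G x))) x ≤ κ ^ 2 * N2 := by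
    rw [integral_indicator hO.measurableSet, hN2]; exact hk
  obtain ⟨B1, hB1⟩ : ∃ B1 : ℝ, B1 = 130 * (n + 1) * (ρ ^ 2 * (1 + M ^ 2) * κ ^ 2 + (ρ ^ 2)⁻¹) :=
    ⟨_, rfl⟩
  have hB10 : 0 ≤ B1 := by rw [hB1]; positivity
  -- the cut-offs times the weight
  have hη2 : ContDiff ℝ ∞ fun y => χ₂ y * Ew ρ G y := hc.s2.mul hEs
  have hη1 : ContDiff ℝ ∞ fun y => χ₁ y * Ew ρ G y := hc.s1.mul hEs
  have t2 : tsupport (fun y => χ₂ y * Ew ρ G y) ⊆ tsupport χ₂ := tsupport_mul_subset_left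
  have t1 : tsupport (fun y => χ₁ y * Ew ρ G y) ⊆ tsupport χ₁ := tsupport_mul_subset_left
  have c2 : HasCompactSupport fun y => χ₂ y * Ew ρ G y := hc.c2.mul_right
  have c1 : HasCompactSupport fun y => χ₁ y * Ew ρ G y := hc.c1.mul_right
  have hgW := gq_c hWs
  have hLc := (Ld_s hs hWs).continuous
  -- first step
  have s1 : ∫ x, (χ₂ x * Ew ρ G x) ^ 2 * gq W x ≤ B1 * N2 := by
    have a1 := cac1D hs hη2 c2 hWs
      (fun x hx => hn x (hc.o2 (t2 hx))) (A := ρ ^ 2) (by positivity)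
    refine a1.trans ?_
    have a2 : ∫ x, (64 * (gq (fun y => χ₂ y * Ew ρ G y) x * W x ^ 2) +
        2 * ρ ^ 2 * ((χ₂ x * Ew ρ G x) ^ 2 * W x ^ 2) +
        2 * (ρ ^ 2)⁻¹ * ((χ₂ x * Ew ρ G x) ^ 2 * Ld s W x ^ 2)) ≤
        ∫ x, ((128 * n * (ρ ^ 2 * (1 + M ^ 2)) + 2 * ρ ^ 2) *
          O.indicator (fun x => w x ^ 2 * Real.exp (-(2 * ρ * G x))) x +
          2 * (ρ ^ 2)⁻¹ * (F x ^ 2 * Real.exp (-(2 * ρ * G x)))) := by
      refine integral_mono (icc ?_ (HasCompactSupport.intro c2 fun x hx => ?_))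
        ((hwi.const_mul _).add (hFi.const_mul _)) fun x => ?_
      · exact ((continuous_const.mul ((gq_c hη2).mul (hWs.continuous.pow 2))).add
          (continuous_const.mul ((hη2.continuous.pow 2).mul (hWs.continuous.pow 2)))).add
          (continuous_const.mul ((hη2.continuous.pow 2).mul (hLc.pow 2)))
      · have z1 : χ₂ x * Ew ρ G x = 0 :=
          image_eq_zero_of_notMem_tsupport (f := fun y => χ₂ y * Ew ρ G y) hx
        have z2 : gq (fun y => χ₂ y * Ew ρ G y) x = 0 :=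
          Finset.sum_eq_zero fun i _ => by rw [poff hx]; ring
        rw [z1, z2]; ring
      · show 64 * (gq (fun y => χ₂ y * Ew ρ G y) x * W x ^ 2) +
          2 * ρ ^ 2 * ((χ₂ x * Ew ρ G x) ^ 2 * W x ^ 2) +
          2 * (ρ ^ 2)⁻¹ * ((χ₂ x * Ew ρ G x) ^ 2 * Ld s W x ^ 2) ≤
          (128 * n * (ρ ^ 2 * (1 + M ^ 2)) + 2 * ρ ^ 2) *
          O.indicator (fun x => w x ^ 2 * Real.exp (-(2 * ρ * G x))) x +
          2 * (ρ ^ 2)⁻¹ * (F x ^ 2 * Real.exp (-(2 * ρ * G x)))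
        by_cases hx : x ∈ tsupport χ₂
        · have hxO := hc.o2 hx
          rw [indicator_of_mem hxO, hWL x hx, hWU x (hKU hx), ← Ew_sq]
          have b1 := gq_cut hρ0.le hG hc.s2 (hc.b2 x) (fun k => hc.d2 k x) (hM x hxO)
          have b2 : χ₂ x ^ 2 ≤ 1 := by
            rw [← sq_abs]; exact pow_le_one₀ (abs_nonneg _) (hc.b2 x)
          have b3 := mul_le_mul_of_nonneg_right b1 (sq_nonneg (w x))
          have b4 : 0 ≤ Ew ρ G x ^ 2 * w x ^ 2 := by positivity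
          have b5 := mul_le_mul_of_nonneg_right b2 b4
          have b6 : 0 ≤ Ew ρ G x ^ 2 * F x ^ 2 := by positivity
          have b7 := mul_le_mul_of_nonneg_right b2 b6
          have b8 : 0 < (ρ ^ 2)⁻¹ := by positivity
          have b9 := mul_le_mul_of_nonneg_left b7 b8.le
          have b10 := mul_le_mul_of_nonneg_left b5 (sq_nonneg ρ)
          have e1 : (χ₂ x * Ew ρ G x) ^ 2 * w x ^ 2 = χ₂ x ^ 2 * (Ew ρ G x ^ 2 * w x ^ 2) := by ring
          have e2 : (χ₂ x * Ew ρ G x) ^ 2 * F x ^ 2 = χ₂ x ^ 2 * (Ew ρ G x ^ 2 * F x ^ 2) := by ring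
          rw [e1, e2]
          nlinarith
        · have z1 : χ₂ x = 0 := image_eq_zero_of_notMem_tsupport hx
          have z2 : gq (fun y => χ₂ y * Ew ρ G y) x = 0 :=
            Finset.sum_eq_zero fun i _ => by rw [poff (fun h => hx (t2 h))]; ring
          rw [z1, z2]
          have z3 : 0 ≤ O.indicator (fun x => w x ^ 2 * Real.exp (-(2 * ρ * G x))) x :=
            indicator_nonneg (fun y _ => by positivity) x
          have z4 : 0 ≤ (128 * n * (ρ ^ 2 * (1 + M ^ 2)) + 2 * ρ ^ 2) *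
            O.indicator (fun x => w x ^ 2 * Real.exp (-(2 * ρ * G x))) x :=
            mul_nonneg (by positivity) z3
          have z5 : 0 ≤ 2 * (ρ ^ 2)⁻¹ * (F x ^ 2 * Real.exp (-(2 * ρ * G x))) := by positivity
          linarith
    refine a2.trans ?_
    rw [integral_add (hwi.const_mul _) (hFi.const_mul _), integral_const_mul, integral_const_mul,
      ← hN2]
    have a3 : (128 * n * (ρ ^ 2 * (1 + M ^ 2)) + 2 * ρ ^ 2) *
        ∫ x, O.indicator (fun x => w x ^ 2 * Real.exp (-(2 * ρ * G x))) x ≤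
        (128 * n * (ρ ^ 2 * (1 + M ^ 2)) + 2 * ρ ^ 2) * (κ ^ 2 * N2) :=
      mul_le_mul_of_nonneg_left hwe (by positivity)
    have a4 : 0 ≤ κ ^ 2 * N2 := by positivity
    have a5 : 2 * ρ ^ 2 ≤ 2 * (ρ ^ 2 * (1 + M ^ 2)) := by
      have : 0 ≤ ρ ^ 2 * M ^ 2 := by positivity
      nlinarith
    have a6 : 0 ≤ (ρ ^ 2)⁻¹ * N2 := by positivity
    have a7 : 0 ≤ ρ ^ 2 * (1 + M ^ 2) * (κ ^ 2 * N2) := by positivity
    have a8 : (0 : ℝ) ≤ n := Nat.cast_nonneg n
    have a9 := mul_le_mul_of_nonneg_right a5 a4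
    have a10 : 0 ≤ (n : ℝ) * ((ρ ^ 2)⁻¹ * N2) := by positivity
    have a11 : 0 ≤ (n : ℝ) * (ρ ^ 2 * (1 + M ^ 2) * (κ ^ 2 * N2)) := by positivity
    rw [hB1]
    nlinarith
  -- second step
  refine ⟨W, hWs, hWL, by rw [← hN2, ← hB1]; exact s1, ?_⟩
  rw [← hN2, ← hB1]
  have a1 := cac2D hs hη1 c1 hWs (fun x hx => hn x (hc.o2 (hc.t12 (t1 hx))))
    (fun x hx => hb x (hc.o2 (hc.t12 (t1 hx))))
  refine a1.trans ?_
  have i2 : Integrable fun x => (χ₂ x * Ew ρ G x) ^ 2 * gq W x :=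
    icc ((hη2.continuous.pow 2).mul hgW) (HasCompactSupport.intro c2 fun x hx => by
      have z1 : χ₂ x * Ew ρ G x = 0 :=
        image_eq_zero_of_notMem_tsupport (f := fun y => χ₂ y * Ew ρ G y) hx
      rw [z1]; ring)
  have a2 : ∫ x, (12 * ((χ₁ x * Ew ρ G x) ^ 2 * Ld s W x ^ 2) +
      12 * ((χ₁ x * Ew ρ G x) ^ 2 * gq W x) +
      8 * (gq (fun y => χ₁ y * Ew ρ G y) x * gq W x)) ≤
      ∫ x, (12 * (F x ^ 2 * Real.exp (-(2 * ρ * G x))) +
        (12 + 16 * n * (ρ ^ 2 * (1 + M ^ 2))) * ((χ₂ x * Ew ρ G x) ^ 2 * gq W x)) := by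
    refine integral_mono (icc ?_ (HasCompactSupport.intro c1 fun x hx => ?_))
      ((hFi.const_mul _).add (i2.const_mul _)) fun x => ?_
    · exact ((continuous_const.mul ((hη1.continuous.pow 2).mul (hLc.pow 2))).add
        (continuous_const.mul ((hη1.continuous.pow 2).mul hgW))).add
        (continuous_const.mul ((gq_c hη1).mul hgW))
    · have z1 : χ₁ x * Ew ρ G x = 0 :=
        image_eq_zero_of_notMem_tsupport (f := fun y => χ₁ y * Ew ρ G y) hx
      have z2 : gq (fun y => χ₁ y * Ew ρ G y) x = 0 :=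
        Finset.sum_eq_zero fun i _ => by rw [poff hx]; ring
      rw [z1, z2]; ring
    · show 12 * ((χ₁ x * Ew ρ G x) ^ 2 * Ld s W x ^ 2) +
        12 * ((χ₁ x * Ew ρ G x) ^ 2 * gq W x) +
        8 * (gq (fun y => χ₁ y * Ew ρ G y) x * gq W x) ≤
        12 * (F x ^ 2 * Real.exp (-(2 * ρ * G x))) +
        (12 + 16 * n * (ρ ^ 2 * (1 + M ^ 2))) * ((χ₂ x * Ew ρ G x) ^ 2 * gq W x)
      have n1 := gq_nn W x
      by_cases hx : x ∈ tsupport χ₁
      · have hxO := hc.o2 (hc.t12 hx)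
        rw [hWL x (hc.t12 hx), ← Ew_sq, hc.i2 x hx, one_mul]
        have b1 := gq_cut hρ0.le hG hc.s1 (hc.b1 x) (fun k => hc.d1 k x) (hM x hxO)
        have b2 : χ₁ x ^ 2 ≤ 1 := by
          rw [← sq_abs]; exact pow_le_one₀ (abs_nonneg _) (hc.b1 x)
        have b3 := mul_le_mul_of_nonneg_right b1 n1
        have b6 : 0 ≤ Ew ρ G x ^ 2 * F x ^ 2 := by positivity
        have b7 := mul_le_mul_of_nonneg_right b2 b6
        have b8 : 0 ≤ Ew ρ G x ^ 2 * gq W x := by positivity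
        have b9 := mul_le_mul_of_nonneg_right b2 b8
        have e2 : (χ₁ x * Ew ρ G x) ^ 2 * F x ^ 2 = χ₁ x ^ 2 * (Ew ρ G x ^ 2 * F x ^ 2) := by ring
        have e3 : (χ₁ x * Ew ρ G x) ^ 2 * gq W x = χ₁ x ^ 2 * (Ew ρ G x ^ 2 * gq W x) := by ring
        rw [e2, e3]
        nlinarith
      · have z1 : χ₁ x = 0 := image_eq_zero_of_notMem_tsupport hx
        have z2 : gq (fun y => χ₁ y * Ew ρ G y) x = 0 :=
          Finset.sum_eq_zero fun i _ => by rw [poff (fun h => hx (t1 h))]; ring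
        rw [z1, z2]
        have z4 : 0 ≤ 12 * (F x ^ 2 * Real.exp (-(2 * ρ * G x))) := by positivity
        have z5 : 0 ≤ (12 + 16 * n * (ρ ^ 2 * (1 + M ^ 2))) * ((χ₂ x * Ew ρ G x) ^ 2 * gq W x) := by
          positivity
        linarith
  refine a2.trans ?_
  rw [integral_add (hFi.const_mul _) (i2.const_mul _), integral_const_mul, integral_const_mul,
    ← hN2]
  have a3 : (12 + 16 * n * (ρ ^ 2 * (1 + M ^ 2))) * ∫ x, (χ₂ x * Ew ρ G x) ^ 2 * gq W x ≤
      (12 + 16 * n * (ρ ^ 2 * (1 + M ^ 2))) * (B1 * N2) := mul_le_mul_of_nonneg_left s1 (by positivity)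
  linarith

end Vale.Agent.P088.S4.H999
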