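import Vale.Agent.P088.R2.H999.S4.CacD
import Vale.Agent.P088.R2.H349.S4.SpecA
import Vale.Agent.P088.R2.H960.Kit

/-!
# P088, stage 4: weighted solvability of `∑ ∂_i (s_ij ∂_j W) = F` with bounds of `∇W` and `∇²W`
-/

open MeasureTheory Set
open scoped ContDiff Matrix Topology

noncomputable section

namespace Vale.Agent.P088.S4.H999

open Vale.Agent.P088.LR Vale.Agent.P088.HY
open Vale.Agent.P088.R2.H404 (Ld fl)
open Vale.Agent.P088.R2.H238.S3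
open Vale.Agent.P088.PJ.H960 (cl_norm cl_mono cl_pd)

variable {n : ℕ}

theorem CC.cu {O B : Set (V n)} {ρ : ℝ} {χ χ₁ χ₂ : V n → ℝ} (h : CC O B ρ χ χ₁ χ₂) :
    Cu O ρ χ χ₁ χ₂ := ⟨h.s0, h.s1, h.s2, h.c2, h.o2, h.i1, h.i2, h.b1, h.b2, h.d1, h.d2⟩

theorem pd_subc {f : V n → ℝ} (c : ℝ) (i : Fin n) : pd i (fun y => f y - c) = pd i f := by
  funext x
  unfold pd
  rw [fderiv_sub_const]

theorem sm_sub {s : MF n} (hs : SmM s) (i j : Fin n) :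
    ContDiff ℝ ∞ (fun x => s x i j - (1 : Matrix (Fin n) (Fin n) ℝ) i j) :=
  (hs i j).sub contDiff_const

theorem s_pd {s : MF n} (hs : SmM s) {k : ℕ} {δ : ℝ} (i j : Fin n)
    (h : Cl (k + 1) δ (fun x => s x i j - (1 : Matrix (Fin n) (Fin n) ℝ) i j)) (l : Fin n) :
    Cl k δ (pd l fun x => s x i j) := by
  have h1 := cl_pd (sm_sub hs i j) h l
  rwa [pd_subc] at h1

/-- **Weighted solvability**, scalar divergence form, with bounds of the derivatives. -/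
theorem solE (n : ℕ) {M C₁ : ℝ} (hM : 0 < M) (hC₁ : 0 < C₁) :
    ∃ C δ₀ : ℝ, 0 < C ∧ 0 < δ₀ ∧ ∀ O : Set (V n), IsOpen O → ∀ s : MF n, SmM s →
      (∀ i j, Cl 2 δ₀ (fun x => s x i j - (1 : Matrix (Fin n) (Fin n) ℝ) i j)) →
      ∀ g : V n → ℝ, ContDiff ℝ ∞ g → (∀ x ∈ O, ∀ i, |pd i g x| ≤ M) → ∀ ρ : ℝ, 1 ≤ ρ →
      SlD O s g ρ (C₁ / ρ ^ 3) →
      ∀ (B : Set (V n)) (χ χ₁ χ₂ : V n → ℝ), CC O B ρ χ χ₁ χ₂ →
      ∀ F : V n → ℝ, ContDiff ℝ ∞ F → HasCompactSupport F → tsupport F ⊆ O →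
      ∃ W : V n → ℝ, ContDiff ℝ ∞ W ∧ (∀ x ∈ tsupport χ₂, Ld s W x = F x) ∧
        ∫ x, (χ₂ x * Ew ρ g x) ^ 2 * gq W x ≤
          C / ρ * ∫ x, F x ^ 2 * Real.exp (-(2 * ρ * g x)) ∧
        ∫ x, (χ₁ x * Ew ρ g x) ^ 2 * hq W x ≤
          C * ρ * ∫ x, F x ^ 2 * Real.exp (-(2 * ρ * g x)) := by
  have hn0 : (0 : ℝ) ≤ n := Nat.cast_nonneg n
  obtain ⟨C1, hC1⟩ : ∃ C1 : ℝ, C1 = 130 * (n + 1) * ((1 + M ^ 2) * C₁ + 1) := ⟨_, rfl⟩
  have hC10 : 0 < C1 := by rw [hC1]; positivity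
  obtain ⟨C2, hC2⟩ : ∃ C2 : ℝ, C2 = 12 + (12 + 16 * n * (1 + M ^ 2)) * C1 := ⟨_, rfl⟩
  have hC21 : C1 ≤ C2 := by
    rw [hC2]
    have : 0 ≤ 16 * n * (1 + M ^ 2) * C1 := by positivity
    nlinarith
  obtain ⟨δ, hδ⟩ : ∃ δ : ℝ, δ = min (1 / (8 * ((n : ℝ) + 1))) (1 / ((n : ℝ) + 1) ^ 2) :=
    ⟨_, rfl⟩
  have hδ0 : 0 < δ := by rw [hδ]; positivity
  have d2 : δ ≤ 1 / (8 * ((n : ℝ) + 1)) := by
    rw [hδ]; exact min_le_left _ _
  have d3 : δ ≤ 1 / ((n : ℝ) + 1) ^ 2 := by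
    rw [hδ]; exact min_le_right _ _
  refine ⟨C2, δ, by linarith, hδ0, fun O hO s hs hcl g hgs hg1 ρ hρ1 hsl B χ χ₁ χ₂ hcc F hF
    hFc hFt => ?_⟩
  have hρ0 : 0 < ρ := by linarith
  have p1 : ∀ x i j l, |pd l (fun y => s y i j) x| ≤ δ := fun x i j l => by
    have := cl_norm (s_pd hs i j (hcl i j) l) x
    rwa [Real.norm_eq_abs] at this
  have hFi : Integrable fun x => F x ^ 2 * Real.exp (-(2 * ρ * g x)) :=
    icc ((hF.continuous.pow 2).mul (Real.continuous_exp.comp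
      (continuous_const.mul hgs.continuous).neg)) (HasCompactSupport.intro hFc fun x hx => by
      rw [image_eq_zero_of_notMem_tsupport hx]; ring)
  obtain ⟨w, hw, he', hi, hk⟩ := hsl F hF hFc hFt
  have hκ0 : 0 ≤ C₁ / ρ ^ 3 := by positivity
  have hk' : ∫ x in O, w x ^ 2 * Real.exp (-(2 * ρ * g x)) ≤
      (√(C₁ / ρ ^ 3)) ^ 2 * ∫ x, F x ^ 2 * Real.exp (-(2 * ρ * g x)) := by
    rw [Real.sq_sqrt hκ0]
    refine hk.trans (mul_le_mul_of_nonneg_left ?_ hκ0)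
    exact setIntegral_le_integral hFi (Filter.Eventually.of_forall fun x => by positivity)
  have hdv : ∀ x ∈ O, ∑ j, dv s j x ^ 2 ≤ 1 := by
    intro x _
    calc ∑ j, dv s j x ^ 2 ≤ ∑ _j : Fin n, (n * δ) ^ 2 := by
          refine Finset.sum_le_sum fun j _ => ?_
          rw [← sq_abs]
          refine pow_le_pow_left₀ (abs_nonneg _) ?_ 2
          unfold dv
          refine (Finset.abs_sum_le_sum_abs _ _).trans ?_
          calc ∑ i, |pd i (fun y => s y i j) x| ≤ ∑ _i : Fin n, δ :=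
                Finset.sum_le_sum fun i _ => p1 x i j i
            _ = n * δ := by simp
      _ = n * (n * δ) ^ 2 := by simp
      _ ≤ 1 := by
          have h1 : n * δ ≤ n * (1 / ((n : ℝ) + 1) ^ 2) := mul_le_mul_of_nonneg_left d3 hn0
          have h2 : (n * δ) ^ 2 ≤ (n * (1 / ((n : ℝ) + 1) ^ 2)) ^ 2 :=
            pow_le_pow_left₀ (by positivity) h1 2
          have h3 := mul_le_mul_of_nonneg_left h2 hn0
          refine h3.trans ?_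
          have h4 : n * (n * (1 / ((n : ℝ) + 1) ^ 2)) ^ 2 = n ^ 3 / ((n : ℝ) + 1) ^ 4 := by
            field_simp
          rw [h4, div_le_one (by positivity)]
          have h5 : (n : ℝ) ^ 3 ≤ ((n : ℝ) + 1) ^ 3 := pow_le_pow_left₀ hn0 (by linarith) 3
          have h6 : ((n : ℝ) + 1) ^ 3 ≤ ((n : ℝ) + 1) ^ 4 :=
            pow_le_pow_right₀ (by linarith) (by norm_num)
          linarith
  obtain ⟨W, hW, hWL, b1, b2⟩ := wintD hO hs hgs hρ1 (CC.cu hcc) (fun x _ i j => by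
      have := cl_norm (hcl i j) x
      rw [Real.norm_eq_abs] at this
      exact this.trans d2) hdv (fun x hx k => hg1 x hx k) hw hF hFc he' hi hk'
  rw [Real.sq_sqrt hκ0] at b1 b2
  obtain ⟨N2, hN2⟩ : ∃ N2 : ℝ, N2 = ∫ x, F x ^ 2 * Real.exp (-(2 * ρ * g x)) := ⟨_, rfl⟩
  have hN0 : 0 ≤ N2 := by
    rw [hN2]; exact integral_nonneg fun x => by positivity
  rw [← hN2] at b1 b2
  have q1 : 130 * (n + 1) * (ρ ^ 2 * (1 + M ^ 2) * (C₁ / ρ ^ 3) + (ρ ^ 2)⁻¹) ≤ C1 / ρ := by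
    have r1 : (ρ ^ 2)⁻¹ ≤ 1 / ρ := by
      rw [← one_div]
      exact one_div_le_one_div_of_le hρ0 (by nlinarith)
    have r2 : ρ ^ 2 * (1 + M ^ 2) * (C₁ / ρ ^ 3) = (1 + M ^ 2) * C₁ * (1 / ρ) := by
      field_simp
    rw [r2, hC1]
    have r3 : 130 * ((n : ℝ) + 1) * ((1 + M ^ 2) * C₁ + 1) / ρ =
        130 * ((n : ℝ) + 1) * ((1 + M ^ 2) * C₁ * (1 / ρ) + 1 / ρ) := by
      field_simp
    rw [r3]
    refine mul_le_mul_of_nonneg_left ?_ (by positivity)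
    linarith
  have q0 : 0 ≤ 130 * (n + 1) * (ρ ^ 2 * (1 + M ^ 2) * (C₁ / ρ ^ 3) + (ρ ^ 2)⁻¹) := by
    positivity
  generalize 130 * (n + 1) * (ρ ^ 2 * (1 + M ^ 2) * (C₁ / ρ ^ 3) + (ρ ^ 2)⁻¹) = X
    at b1 b2 q1 q0
  refine ⟨W, hW, hWL, ?_, ?_⟩
  · rw [← hN2]
    refine b1.trans (mul_le_mul_of_nonneg_right (q1.trans ?_) hN0)
    exact div_le_div_of_nonneg_right hC21 hρ0.le
  · rw [← hN2]
    refine b2.trans (mul_le_mul_of_nonneg_right ?_ hN0)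
    obtain ⟨Y, hY⟩ : ∃ Y : ℝ, Y = 16 * n * (1 + M ^ 2) := ⟨_, rfl⟩
    have hY0 : 0 ≤ Y := by rw [hY]; positivity
    have hρ2 : 1 ≤ ρ ^ 2 := by nlinarith
    have q2 : 12 + 16 * n * (ρ ^ 2 * (1 + M ^ 2)) ≤ (12 + Y) * ρ ^ 2 := by
      rw [hY]; linarith
    have q3 : (12 + 16 * n * (ρ ^ 2 * (1 + M ^ 2))) * X ≤ (12 + Y) * ρ ^ 2 * (C1 / ρ) :=
      mul_le_mul q2 q1 q0 (by positivity)
    have q4 : (12 + Y) * ρ ^ 2 * (C1 / ρ) = (12 + Y) * C1 * ρ := by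
      field_simp
    rw [hC2, ← hY]
    linarith

end Vale.Agent.P088.S4.H999
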