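import Vale.Agent.P088.R2.H999.S4.Alg

/-!
# P088, stage 4, row X-TR: the weighted estimate of the trace part
-/

open MeasureTheory Set
open scoped ContDiff Matrix Topology

noncomputable section

namespace Vale.Agent.P088.S4.H999

open Vale.Agent.P088.LR Vale.Agent.P088.LR.U Vale.Agent.P088.LR.H158 Vale.Agent.P088.HY
open Vale.Agent.P088.PJ
open Vale.Agent.P088.R2.H404 (Ld fl)
open Vale.Agent.P088.R2.H238.S3
open Vale.Agent.P088.PJ.H960 (fr nq_nonneg fr_nonneg fr_sq cl_norm cl_mono)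

variable {n N : ℕ}

/-- `|t| ≤ α p / 2 + q / (2 α)` if `t² ≤ p q`. -/
theorem amgm {t p q α : ℝ} (hα : 0 < α) (hp : 0 ≤ p) (hq : 0 ≤ q) (h : t ^ 2 ≤ p * q) :
    |t| ≤ α / 2 * p + 1 / (2 * α) * q := by
  refine abs_le_of_sq_le_sq ?_ (by positivity)
  refine h.trans ?_
  have e : (α / 2 * p + 1 / (2 * α) * q) ^ 2 - p * q = (α / 2 * p - 1 / (2 * α) * q) ^ 2 := by
    field_simp
    ring
  nlinarith [sq_nonneg (α / 2 * p - 1 / (2 * α) * q)]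

section

variable {k : ℕ} {δ : ℝ} {O K : Set (V n)} {j₀ : Fin N} {s₁ s₂ : MF n} {P₁ P₂ : MC n N}
    {G₁ G₂ β Y D : Fin n → MC n N} {Γ : Fin n → Fin n → MC n N}

theorem tn1 (h : RL k δ O K j₀ s₁ s₂ P₁ P₂ G₁ G₂ β Y D) (hδ : δ ≤ 1 / 2) (hn : 3 ≤ n) (x : V n) :
    0 < ∑ i, ∑ j, s₁ x i j ^ 2 := by
  have i0 : Fin n := ⟨0, by omega⟩
  have h1 := cl_norm (h.d₁.cs i0 i0) x
  rw [Real.norm_eq_abs, Matrix.one_apply_eq] at h1
  have h2 := (abs_le.1 h1).1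
  have h3 : 1 / 2 ≤ s₁ x i0 i0 := by linarith
  have h4 : 0 < s₁ x i0 i0 ^ 2 := by positivity
  refine h4.trans_le ?_
  refine le_trans ?_ (Finset.single_le_sum (f := fun i => ∑ j, s₁ x i j ^ 2)
    (fun i _ => Finset.sum_nonneg fun _ _ => sq_nonneg _) (Finset.mem_univ i0))
  exact Finset.single_le_sum (f := fun j => s₁ x i0 j ^ 2)
    (fun _ _ => sq_nonneg _) (Finset.mem_univ i0)

theorem ph_s (h : RL k δ O K j₀ s₁ s₂ P₁ P₂ G₁ G₂ β Y D) (hδ : δ ≤ 1 / 2) (hn : 3 ≤ n) :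
    ContDiff ℝ ∞ (ph s₁ s₂) := by
  unfold ph
  refine ContDiff.div ?_ ?_ fun x => (tn1 h hδ hn x).ne'
  · exact ContDiff.sum fun i _ => ContDiff.sum fun j _ =>
      (h.d₁.ss i j).mul ((h.d₂.ss i j).sub (h.d₁.ss i j))
  · exact ContDiff.sum fun i _ => ContDiff.sum fun j _ => (h.d₁.ss i j).pow 2

theorem ps_s (h : RL k δ O K j₀ s₁ s₂ P₁ P₂ G₁ G₂ β Y D) (hδ : δ ≤ 1 / 2) (hn : 3 ≤ n) :
    ContDiff ℝ ∞ (ps j₀ s₁ s₂ P₁ P₂) := by
  unfold ps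
  exact ((ph_s h hδ hn).mul (tr_s h.d₂.sP j₀)).add (tr_s (smC_sub h.d₂.sP h.d₁.sP) j₀)

/-- `Z + E`. -/
def fX (j₀ : Fin N) (s₁ s₂ : MF n) (P₁ P₂ : MC n N) (D : Fin n → MC n N) (Γ : Fin n → Fin n → MC n N)
    (j b : Fin n) (x : V n) : ℝ := fA j₀ s₁ s₂ P₁ P₂ j b x + fE j₀ s₂ P₂ D Γ j b x

/-- `(tr P₂) (h - ph s₁) + E`. -/
def fY (j₀ : Fin N) (s₁ s₂ : MF n) (P₂ : MC n N) (D : Fin n → MC n N) (Γ : Fin n → Fin n → MC n N)
    (j b : Fin n) (x : V n) : ℝ :=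
  (P₂ x j₀ j₀).re * (s₂ x j b - s₁ x j b - ph s₁ s₂ x * s₁ x j b) + fE j₀ s₂ P₂ D Γ j b x

theorem fX_eq (j₀ : Fin N) (s₁ s₂ : MF n) (P₁ P₂ : MC n N) (D : Fin n → MC n N) (Γ : Fin n → Fin n → MC n N)
    (j b : Fin n) (x : V n) :
    fX j₀ s₁ s₂ P₁ P₂ D Γ j b x = fY j₀ s₁ s₂ P₂ D Γ j b x + s₁ x j b * ps j₀ s₁ s₂ P₁ P₂ x := by
  unfold fX fY
  rw [fA_eq]
  ring

theorem fX_s (h : RL k δ O K j₀ s₁ s₂ P₁ P₂ G₁ G₂ β Y D) (hΓ : IG k δ Y Γ) (j b : Fin n) :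
    ContDiff ℝ ∞ (fX j₀ s₁ s₂ P₁ P₂ D Γ j b) := (fA_s h j b).add (fE_s h hΓ j b)

theorem dv_le {s : MF n} (hs : SmM s)
    (hc : ∀ i j, Cl (0 + 1) δ (fun x => s x i j - (1 : Matrix (Fin n) (Fin n) ℝ) i j))
    (hδ0 : 0 ≤ δ) (hδ : δ ≤ 1 / ((n : ℝ) + 1) ^ 2) (x : V n) : ∑ j, dv s j x ^ 2 ≤ 1 := by
  have hn0 : (0 : ℝ) ≤ n := Nat.cast_nonneg n
  have p1 : ∀ i j l, |pd l (fun y => s y i j) x| ≤ δ := fun i j l => by
    have := cl_norm (s_pd hs i j (hc i j) l) x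
    rwa [Real.norm_eq_abs] at this
  calc ∑ j, dv s j x ^ 2 ≤ ∑ _j : Fin n, (n * δ) ^ 2 := by
        refine Finset.sum_le_sum fun j _ => ?_
        rw [← sq_abs]
        refine pow_le_pow_left₀ (abs_nonneg _) ?_ 2
        unfold dv
        refine (Finset.abs_sum_le_sum_abs _ _).trans ?_
        calc ∑ i, |pd i (fun y => s y i j) x| ≤ ∑ _i : Fin n, δ :=
              Finset.sum_le_sum fun i _ => p1 i j i
          _ = n * δ := by simp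
    _ = n * (n * δ) ^ 2 := by simp
    _ ≤ 1 := by
        have h1 : n * δ ≤ n * (1 / ((n : ℝ) + 1) ^ 2) := mul_le_mul_of_nonneg_left hδ hn0
        have h2 : (n * δ) ^ 2 ≤ (n * (1 / ((n : ℝ) + 1) ^ 2)) ^ 2 :=
          pow_le_pow_left₀ (by positivity) h1 2
        have h3 := mul_le_mul_of_nonneg_left h2 hn0
        refine h3.trans ?_
        have h4 : n * (n * (1 / ((n : ℝ) + 1) ^ 2)) ^ 2 = n ^ 3 / ((n : ℝ) + 1) ^ 4 := by
          field_simp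
        rw [h4, div_le_one (by positivity)]
        have h5 : (n : ℝ) ^ 3 ≤ ((n : ℝ) + 1) ^ 3 := pow_le_pow_left₀ hn0 (by linarith) 3
        have h6 : ((n : ℝ) + 1) ^ 3 ≤ ((n : ℝ) + 1) ^ 4 :=
          pow_le_pow_right₀ (by linarith) (by norm_num)
        linarith

/-! ### the divergence -/

/-- The vector field of the test. -/
def vf (X : Fin n → Fin n → V n → ℝ) (χ W : V n → ℝ) (j : Fin n) (x : V n) : ℝ :=
  χ x * ∑ b, pd b W x * X j b x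

theorem vf_s {X : Fin n → Fin n → V n → ℝ} (hX : ∀ j b, ContDiff ℝ ∞ (X j b)) {χ W : V n → ℝ}
    (hχ : ContDiff ℝ ∞ χ) (hW : ContDiff ℝ ∞ W) (j : Fin n) : ContDiff ℝ ∞ (vf X χ W j) :=
  hχ.mul (ContDiff.sum fun b _ => (cp hW b).mul (hX j b))

theorem vf_div {X : Fin n → Fin n → V n → ℝ} (hX : ∀ j b, ContDiff ℝ ∞ (X j b)) {χ W : V n → ℝ}
    (hχ : ContDiff ℝ ∞ χ) (hW : ContDiff ℝ ∞ W) (x : V n) :
    ∑ j, pd j (vf X χ W j) x = (∑ j, ∑ b, X j b x * (pd j χ x * pd b W x)) +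
      χ x * (∑ j, ∑ b, X j b x * pd j (pd b W) x) + χ x * ∑ b, pd b W x * ∑ j, pd j (X j b) x := by
  have h1 : ∀ j, pd j (vf X χ W j) x = (∑ b, X j b x * (pd j χ x * pd b W x)) +
      χ x * (∑ b, X j b x * pd j (pd b W) x) + χ x * ∑ b, pd b W x * pd j (X j b) x := by
    intro j
    have e : vf X χ W j = fun y => χ y * ∑ b, pd b W y * X j b y := rfl
    rw [e, pmul hχ (ContDiff.sum fun b _ => (cp hW b).mul (hX j b)) j x,
      psum (fun b => (cp hW b).mul (hX j b)) j x]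
    have h2 : ∀ b, pd j (fun y => pd b W y * X j b y) x =
        X j b x * pd j (pd b W) x + pd b W x * pd j (X j b) x := fun b => by
      rw [pmul (cp hW b) (hX j b) j x]; ring
    simp only [h2, Finset.sum_add_distrib]
    have h3 : ∑ b, X j b x * (pd j χ x * pd b W x) = pd j χ x * ∑ b, pd b W x * X j b x := by
      rw [Finset.mul_sum]; exact Finset.sum_congr rfl fun b _ => by ring
    rw [h3]
    ring
  simp only [h1, Finset.sum_add_distrib, ← Finset.mul_sum]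
  have h4 : ∑ j, ∑ b, pd b W x * pd j (X j b) x = ∑ b, pd b W x * ∑ j, pd j (X j b) x := by
    rw [Finset.sum_comm]
    exact Finset.sum_congr rfl fun b _ => by rw [Finset.mul_sum]
  rw [h4]

/-- The identity at a point. -/
theorem point_id {χ W F : V n → ℝ} {X Yt : Fin n → Fin n → V n → ℝ} {R : Fin n → V n → ℝ}
    {s : MF n} {p : V n → ℝ} (hs : SmM s)
    (hX : ∀ j b, ContDiff ℝ ∞ (X j b)) (hχ : ContDiff ℝ ∞ χ) (hW : ContDiff ℝ ∞ W) {x : V n}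
    (hR : ∀ b, ∑ j, pd j (X j b) x = R b x) (hXY : ∀ j b, X j b x = Yt j b x + s x j b * p x)
    (hL : Ld s W x = F x) :
    χ x * p x * F x = (∑ j, pd j (vf X χ W j) x) - (∑ j, ∑ b, X j b x * (pd j χ x * pd b W x))
      - χ x * (∑ j, ∑ b, Yt j b x * pd j (pd b W) x) + χ x * p x * (∑ j, dv s j x * pd j W x)
      - χ x * ∑ b, R b x * pd b W x := by
  rw [vf_div hX hχ hW x]
  have h1 := Ld_eq hs hW x
  rw [hL] at h1
  have h2 : ∑ j, ∑ b, X j b x * pd j (pd b W) x = (∑ j, ∑ b, Yt j b x * pd j (pd b W) x) +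
      p x * Lv s W x := by
    unfold Lv
    rw [Finset.mul_sum, ← Finset.sum_add_distrib]
    refine Finset.sum_congr rfl fun j _ => ?_
    rw [Finset.mul_sum, ← Finset.sum_add_distrib]
    refine Finset.sum_congr rfl fun b _ => ?_
    rw [hXY]
    ring
  have h3 : ∑ b, pd b W x * ∑ j, pd j (X j b) x = ∑ b, R b x * pd b W x :=
    Finset.sum_congr rfl fun b _ => by rw [hR, mul_comm]
  rw [h2, h3]
  rw [h1]
  ring

/-- The inequality at a point: `a = χ`, `p = ps`, `E = e^{2ρg}`, `e = e^{-ρg}`. -/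
theorem point_le {χ W F : V n → ℝ} {X Yt : Fin n → Fin n → V n → ℝ} {R : Fin n → V n → ℝ}
    {s : MF n} {p g : V n → ℝ} {ρ : ℝ} (hs : SmM s)
    (hX : ∀ j b, ContDiff ℝ ∞ (X j b)) (hχ : ContDiff ℝ ∞ χ) (hW : ContDiff ℝ ∞ W) {x : V n}
    (hR : ∀ b, ∑ j, pd j (X j b) x = R b x) (hXY : ∀ j b, X j b x = Yt j b x + s x j b * p x)
    (hL : Ld s W x = F x) (hF : F x = χ x * p x * Real.exp (2 * ρ * g x))
    (hd : ∑ j, dv s j x ^ 2 ≤ 1) {α β : ℝ} (hα : 0 < α) (hβ : 0 < β) :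
    χ x ^ 2 * Real.exp (2 * ρ * g x) * p x ^ 2 ≤ (∑ j, pd j (vf X χ W j) x)
      + 1 / 8 * (χ x ^ 2 * Real.exp (2 * ρ * g x) * p x ^ 2)
      + (2 + α) * (Ew ρ g x ^ 2 * gq W x) + β / 2 * (Ew ρ g x ^ 2 * hq W x)
      + 1 / (2 * β) * (χ x ^ 2 * Real.exp (2 * ρ * g x) * ∑ j, ∑ b, Yt j b x ^ 2)
      + 1 / (2 * α) * (χ x ^ 2 * Real.exp (2 * ρ * g x) * ∑ b, R b x ^ 2)
      + 1 / (2 * α) * (gq χ x * Real.exp (2 * ρ * g x) * ∑ j, ∑ b, X j b x ^ 2) := by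
  have e0 := point_id (χ := χ) hs hX hχ hW hR hXY hL
  have hE := Ew_inv ρ g x
  have e1 : χ x * p x * F x = χ x ^ 2 * Real.exp (2 * ρ * g x) * p x ^ 2 := by rw [hF]; ring
  rw [e1] at e0
  have hE0 : 0 < Real.exp (2 * ρ * g x) := Real.exp_pos _
  have hg := gq_nn W x
  have hgχ := gq_nn χ x
  have hh := hq_nn W x
  have c1 := cs2 (fun j b => X j b x) (fun j => pd j χ x) (fun b => pd b W x)
  have c2 := cs3 (fun j b => Yt j b x) (fun j b => pd j (pd b W) x)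
  have c3 := Finset.sum_mul_sq_le_sq_mul_sq Finset.univ (fun j => dv s j x) (fun j => pd j W x)
  have c4 := Finset.sum_mul_sq_le_sq_mul_sq Finset.univ (fun b => R b x) (fun b => pd b W x)
  have g1 : ∑ i, pd i W x ^ 2 = gq W x := rfl
  have g2 : ∑ i, pd i χ x ^ 2 = gq χ x := rfl
  have g3 : ∑ j, ∑ i, pd j (pd i W) x ^ 2 = hq W x := rfl
  rw [g1, g2] at c1
  rw [g3] at c2
  rw [g1] at c3 c4
  have n1 : 0 ≤ ∑ j, ∑ b, X j b x ^ 2 :=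
    Finset.sum_nonneg fun _ _ => Finset.sum_nonneg fun _ _ => sq_nonneg _
  have n2 : 0 ≤ ∑ j, ∑ b, Yt j b x ^ 2 :=
    Finset.sum_nonneg fun _ _ => Finset.sum_nonneg fun _ _ => sq_nonneg _
  have n3 : 0 ≤ ∑ b, R b x ^ 2 := Finset.sum_nonneg fun _ _ => sq_nonneg _
  generalize (∑ j, ∑ b, X j b x * (pd j χ x * pd b W x)) = T1 at e0 c1
  generalize (∑ j, ∑ b, Yt j b x * pd j (pd b W) x) = T2 at e0 c2
  generalize (∑ j, dv s j x * pd j W x) = T3 at e0 c3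
  generalize (∑ b, R b x * pd b W x) = T4 at e0 c4
  generalize (∑ j, ∑ b, X j b x ^ 2) = SX at *
  generalize (∑ j, ∑ b, Yt j b x ^ 2) = SY at *
  generalize (∑ b, R b x ^ 2) = SR at *
  generalize (∑ j, dv s j x ^ 2) = Sv at *
  generalize (∑ j, pd j (vf X χ W j) x) = Dv at *
  generalize gq W x = g₁ at *
  generalize gq χ x = g₂ at *
  generalize hq W x = h₁ at *
  generalize Real.exp (2 * ρ * g x) = E at *
  generalize Ew ρ g x = e at *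
  generalize χ x = a at *
  generalize p x = q at *
  have k1 : |T1| ≤ α / 2 * (e ^ 2 * g₁) + 1 / (2 * α) * (g₂ * E * SX) := by
    refine amgm hα (by positivity) (by positivity) ?_
    have : e ^ 2 * g₁ * (g₂ * E * SX) = (e ^ 2 * E) * (SX * (g₂ * g₁)) := by ring
    rw [this, hE, one_mul]
    exact c1
  have k2 : |a * T2| ≤ β / 2 * (e ^ 2 * h₁) + 1 / (2 * β) * (a ^ 2 * E * SY) := by
    refine amgm hβ (by positivity) (by positivity) ?_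
    have : e ^ 2 * h₁ * (a ^ 2 * E * SY) = (e ^ 2 * E) * (a ^ 2 * (SY * h₁)) := by ring
    rw [this, hE, one_mul, mul_pow]
    exact mul_le_mul_of_nonneg_left c2 (sq_nonneg _)
  have k3 : |a * q * T3| ≤ 4 / 2 * (e ^ 2 * g₁) + 1 / (2 * 4) * (a ^ 2 * E * q ^ 2) := by
    refine amgm (by norm_num) (by positivity) (by positivity) ?_
    have : e ^ 2 * g₁ * (a ^ 2 * E * q ^ 2) = (e ^ 2 * E) * ((a * q) ^ 2 * g₁) := by ring
    rw [this, hE, one_mul, mul_pow]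
    refine mul_le_mul_of_nonneg_left (c3.trans ?_) (sq_nonneg _)
    have := mul_le_mul_of_nonneg_right hd hg
    linarith
  have k4 : |a * T4| ≤ α / 2 * (e ^ 2 * g₁) + 1 / (2 * α) * (a ^ 2 * E * SR) := by
    refine amgm hα (by positivity) (by positivity) ?_
    have : e ^ 2 * g₁ * (a ^ 2 * E * SR) = (e ^ 2 * E) * (a ^ 2 * (SR * g₁)) := by ring
    rw [this, hE, one_mul, mul_pow]
    exact mul_le_mul_of_nonneg_left c4 (sq_nonneg _)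
  have l1 := neg_le_of_abs_le k1
  have l2 := neg_le_of_abs_le k2
  have l3 := le_of_abs_le k3
  have l4 := neg_le_of_abs_le k4
  linarith

/-! ### sums of squares -/

/-- The constant. -/
def c3c (n N : ℕ) : ℝ := 1 + 8 * (N : ℝ) ^ 2 + 128 * N ^ 4 * n ^ 4 +
  16 * n ^ 2 * N ^ 2 * (n ^ 2 * N ^ 2 + n ^ 4) + 1024 * n ^ 3 * N ^ 4 * (n ^ 2 * N ^ 2 + n ^ 4) +
  128 * n ^ 5 * N ^ 4

theorem c3_pos (n N : ℕ) : 0 < c3c n N := by unfold c3c; positivity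

theorem sY_le (h : RL k δ O K j₀ s₁ s₂ P₁ P₂ G₁ G₂ β Y D) (hΓ : IG k δ Y Γ) (hδ : δ ≤ 1) (x : V n) :
    ∑ j, ∑ b, fY j₀ s₁ s₂ P₂ D Γ j b x ^ 2 ≤ c3c n N * (h0 s₁ s₂ x + d1 D x) := by
  have hS := Sd_sq D x
  have hd := d1_nn D x
  have hh0 := h0_nn s₁ s₂ x
  have h1 : ∀ j b, fY j₀ s₁ s₂ P₂ D Γ j b x ^ 2 ≤ 8 * (N : ℝ) ^ 2 *
      (s₂ x j b - s₁ x j b - ph s₁ s₂ x * s₁ x j b) ^ 2 + 128 * N ^ 4 * Sd D x ^ 2 := by
    intro j b
    have a1 := P_tr h.d₂.cP hδ j₀ x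
    have a2 := bE h hΓ hδ j b x
    have a3 : (P₂ x j₀ j₀).re ^ 2 ≤ (N * 2) ^ 2 := by
      rw [← sq_abs]; exact pow_le_pow_left₀ (abs_nonneg _) a1 2
    have a4 : fE j₀ s₂ P₂ D Γ j b x ^ 2 ≤ (8 * (N : ℝ) ^ 2 * Sd D x) ^ 2 := by
      rw [← sq_abs]; exact pow_le_pow_left₀ (abs_nonneg _) a2 2
    unfold fY
    generalize (s₂ x j b - s₁ x j b - ph s₁ s₂ x * s₁ x j b) = w
    have a5 := mul_le_mul_of_nonneg_right a3 (sq_nonneg w)
    nlinarith [sq_nonneg ((P₂ x j₀ j₀).re * w - fE j₀ s₂ P₂ D Γ j b x)]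
  have h2 : ∑ j, ∑ b, fY j₀ s₁ s₂ P₂ D Γ j b x ^ 2 ≤
      8 * (N : ℝ) ^ 2 * h0 s₁ s₂ x + n ^ 2 * (128 * N ^ 4 * Sd D x ^ 2) := by
    refine (Finset.sum_le_sum fun j _ => Finset.sum_le_sum fun b _ => h1 j b).trans (le_of_eq ?_)
    simp only [Finset.sum_add_distrib, ← Finset.mul_sum, Finset.sum_const, Finset.card_univ,
      Fintype.card_fin, nsmul_eq_mul]
    unfold h0
    ring
  have h3 : (n : ℝ) ^ 2 * (128 * N ^ 4 * Sd D x ^ 2) ≤ n ^ 2 * (128 * N ^ 4 * (n ^ 2 * d1 D x)) :=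
    mul_le_mul_of_nonneg_left (mul_le_mul_of_nonneg_left hS (by positivity)) (by positivity)
  have h4 : 8 * (N : ℝ) ^ 2 ≤ c3c n N := by
    unfold c3c
    have : 0 ≤ 1 + 128 * (N : ℝ) ^ 4 * n ^ 4 +
      16 * n ^ 2 * N ^ 2 * (n ^ 2 * N ^ 2 + n ^ 4) + 1024 * n ^ 3 * N ^ 4 * (n ^ 2 * N ^ 2 + n ^ 4) +
      128 * n ^ 5 * N ^ 4 := by positivity
    linarith
  have h5 : 128 * (N : ℝ) ^ 4 * n ^ 4 ≤ c3c n N := by
    unfold c3c
    have : 0 ≤ 1 + 8 * (N : ℝ) ^ 2 +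
      16 * n ^ 2 * N ^ 2 * (n ^ 2 * N ^ 2 + n ^ 4) + 1024 * n ^ 3 * N ^ 4 * (n ^ 2 * N ^ 2 + n ^ 4) +
      128 * n ^ 5 * N ^ 4 := by positivity
    linarith
  have h6 := mul_le_mul_of_nonneg_right h4 hh0
  have h7 := mul_le_mul_of_nonneg_right h5 hd
  nlinarith

theorem sX_le (h : RL k δ O K j₀ s₁ s₂ P₁ P₂ G₁ G₂ β Y D) (hΓ : IG k δ Y Γ) (hδ : δ ≤ 1) (x : V n) :
    ∑ j, ∑ b, fX j₀ s₁ s₂ P₁ P₂ D Γ j b x ^ 2 ≤
      c3c n N * (hh s₁ s₂ x + nq (P₂ x - P₁ x) + d1 D x) := by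
  have hS := Sd_sq D x
  have hH := Hz_sq h hδ x
  have hd := d1_nn D x
  have hh0 := hh_nn s₁ s₂ x
  have hq := nq_nonneg (P₂ x - P₁ x)
  have h1 : ∀ j b, fX j₀ s₁ s₂ P₁ P₂ D Γ j b x ^ 2 ≤ 2 * (N : ℝ) ^ 2 * Hz s₁ s₂ P₁ P₂ x ^ 2 +
      128 * N ^ 4 * Sd D x ^ 2 := by
    intro j b
    have a1 := bA j₀ s₁ s₂ P₁ P₂ j b x
    have a2 := bE h hΓ hδ j b x
    have a3 : fA j₀ s₁ s₂ P₁ P₂ j b x ^ 2 ≤ (N * Hz s₁ s₂ P₁ P₂ x) ^ 2 := by
      rw [← sq_abs]; exact pow_le_pow_left₀ (abs_nonneg _) a1 2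
    have a4 : fE j₀ s₂ P₂ D Γ j b x ^ 2 ≤ (8 * (N : ℝ) ^ 2 * Sd D x) ^ 2 := by
      rw [← sq_abs]; exact pow_le_pow_left₀ (abs_nonneg _) a2 2
    unfold fX
    nlinarith [sq_nonneg (fA j₀ s₁ s₂ P₁ P₂ j b x - fE j₀ s₂ P₂ D Γ j b x)]
  have h2 : ∑ j, ∑ b, fX j₀ s₁ s₂ P₁ P₂ D Γ j b x ^ 2 ≤
      n ^ 2 * (2 * (N : ℝ) ^ 2 * Hz s₁ s₂ P₁ P₂ x ^ 2 + 128 * N ^ 4 * Sd D x ^ 2) := by
    refine (Finset.sum_le_sum fun j _ => Finset.sum_le_sum fun b _ => h1 j b).trans (le_of_eq ?_)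
    simp only [Finset.sum_const, Finset.card_univ, Fintype.card_fin, nsmul_eq_mul]
    ring
  have h3 : (n : ℝ) ^ 2 * (2 * (N : ℝ) ^ 2 * Hz s₁ s₂ P₁ P₂ x ^ 2 + 128 * N ^ 4 * Sd D x ^ 2) ≤
      n ^ 2 * (2 * (N : ℝ) ^ 2 * (8 * ((n : ℝ) ^ 2 * N ^ 2 + n ^ 4) *
        (hh s₁ s₂ x + nq (P₂ x - P₁ x))) + 128 * N ^ 4 * (n ^ 2 * d1 D x)) :=
    mul_le_mul_of_nonneg_left (add_le_add (mul_le_mul_of_nonneg_left hH (by positivity))
      (mul_le_mul_of_nonneg_left hS (by positivity))) (by positivity)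
  have h4 : 16 * (n : ℝ) ^ 2 * N ^ 2 * (n ^ 2 * N ^ 2 + n ^ 4) ≤ c3c n N := by
    unfold c3c
    have : 0 ≤ 1 + 8 * (N : ℝ) ^ 2 + 128 * (N : ℝ) ^ 4 * n ^ 4 +
      1024 * n ^ 3 * N ^ 4 * (n ^ 2 * N ^ 2 + n ^ 4) + 128 * n ^ 5 * N ^ 4 := by positivity
    linarith
  have h5 : 128 * (N : ℝ) ^ 4 * n ^ 4 ≤ c3c n N := by
    unfold c3c
    have : 0 ≤ 1 + 8 * (N : ℝ) ^ 2 +
      16 * n ^ 2 * N ^ 2 * (n ^ 2 * N ^ 2 + n ^ 4) + 1024 * n ^ 3 * N ^ 4 * (n ^ 2 * N ^ 2 + n ^ 4) +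
      128 * n ^ 5 * N ^ 4 := by positivity
    linarith
  have h6 := mul_le_mul_of_nonneg_right h4 (add_nonneg hh0 hq)
  have h7 := mul_le_mul_of_nonneg_right h5 hd
  nlinarith

theorem sR_le (h : RL k δ O K j₀ s₁ s₂ P₁ P₂ G₁ G₂ β Y D) (hΓ : IG k δ Y Γ) (hk : 1 ≤ k) (hδ : δ ≤ 1)
    (x : V n) : ∑ b, fR j₀ s₁ s₂ P₁ P₂ G₂ Y D Γ b x ^ 2 ≤
      c3c n N * (hh s₁ s₂ x + nq (P₂ x - P₁ x) + d1 D x) := by
  have hS := Sd_sq D x
  have hH := Hz_sq h hδ x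
  have hd := d1_nn D x
  have hh0 := hh_nn s₁ s₂ x
  have hq := nq_nonneg (P₂ x - P₁ x)
  have h1 : ∀ b, fR j₀ s₁ s₂ P₁ P₂ G₂ Y D Γ b x ^ 2 ≤
      128 * (n : ℝ) ^ 2 * N ^ 4 * (Hz s₁ s₂ P₁ P₂ x ^ 2 + Sd D x ^ 2) := by
    intro b
    have a1 := bR h hΓ hk hδ b x
    have a3 : fR j₀ s₁ s₂ P₁ P₂ G₂ Y D Γ b x ^ 2 ≤
        (8 * n * (N : ℝ) ^ 2 * (Hz s₁ s₂ P₁ P₂ x + Sd D x)) ^ 2 := by
      rw [← sq_abs]; exact pow_le_pow_left₀ (abs_nonneg _) a1 2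
    refine a3.trans ?_
    have a4 : 0 ≤ 64 * (n : ℝ) ^ 2 * N ^ 4 * (Hz s₁ s₂ P₁ P₂ x - Sd D x) ^ 2 := by positivity
    nlinarith
  have h2 : ∑ b, fR j₀ s₁ s₂ P₁ P₂ G₂ Y D Γ b x ^ 2 ≤
      n * (128 * (n : ℝ) ^ 2 * N ^ 4 * (Hz s₁ s₂ P₁ P₂ x ^ 2 + Sd D x ^ 2)) := by
    refine (Finset.sum_le_sum fun b _ => h1 b).trans (le_of_eq ?_)
    simp only [Finset.sum_const, Finset.card_univ, Fintype.card_fin, nsmul_eq_mul]
  have h3 : n * (128 * (n : ℝ) ^ 2 * N ^ 4 * (Hz s₁ s₂ P₁ P₂ x ^ 2 + Sd D x ^ 2)) ≤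
      n * (128 * (n : ℝ) ^ 2 * N ^ 4 * (8 * ((n : ℝ) ^ 2 * N ^ 2 + n ^ 4) *
        (hh s₁ s₂ x + nq (P₂ x - P₁ x)) + n ^ 2 * d1 D x)) :=
    mul_le_mul_of_nonneg_left (mul_le_mul_of_nonneg_left (add_le_add hH hS) (by positivity))
      (by positivity)
  have h4 : 1024 * (n : ℝ) ^ 3 * N ^ 4 * (n ^ 2 * N ^ 2 + n ^ 4) ≤ c3c n N := by
    unfold c3c
    have : 0 ≤ 1 + 8 * (N : ℝ) ^ 2 + 128 * (N : ℝ) ^ 4 * n ^ 4 +
      16 * n ^ 2 * N ^ 2 * (n ^ 2 * N ^ 2 + n ^ 4) + 128 * n ^ 5 * N ^ 4 := by positivity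
    linarith
  have h5 : 128 * (n : ℝ) ^ 5 * N ^ 4 ≤ c3c n N := by
    unfold c3c
    have : 0 ≤ 1 + 8 * (N : ℝ) ^ 2 + 128 * (N : ℝ) ^ 4 * n ^ 4 +
      16 * n ^ 2 * N ^ 2 * (n ^ 2 * N ^ 2 + n ^ 4) +
      1024 * n ^ 3 * N ^ 4 * (n ^ 2 * N ^ 2 + n ^ 4) := by positivity
    linarith
  have h6 := mul_le_mul_of_nonneg_right h4 (add_nonneg hh0 hq)
  have h7 := mul_le_mul_of_nonneg_right h5 hd
  nlinarith

/-! ### integration -/

theorem int7 {f d u v y z t : V n → ℝ} (hf : Integrable f) (hd : Integrable d) (hu : Integrable u)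
    (hv : Integrable v) (hy : Integrable y) (hz : Integrable z) (ht : Integrable t)
    {c₁ c₂ c₃ c₄ c₅ c₆ : ℝ}
    (h : ∀ x, f x ≤ d x + c₁ * f x + c₂ * u x + c₃ * v x + c₄ * y x + c₅ * z x + c₆ * t x) :
    ∫ x, f x ≤ (∫ x, d x) + c₁ * (∫ x, f x) + c₂ * (∫ x, u x) + c₃ * (∫ x, v x) +
      c₄ * (∫ x, y x) + c₅ * (∫ x, z x) + c₆ * ∫ x, t x := by
  have i1 := hd.add (hf.const_mul c₁)
  have i2 := i1.add (hu.const_mul c₂)
  have i3 := i2.add (hv.const_mul c₃)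
  have i4 := i3.add (hy.const_mul c₄)
  have i5 := i4.add (hz.const_mul c₅)
  have i6 := i5.add (ht.const_mul c₆)
  refine (integral_mono hf i6 fun x => h x).trans (le_of_eq ?_)
  have e6 := integral_add i5 (ht.const_mul c₆)
  have e5 := integral_add i4 (hz.const_mul c₅)
  have e4 := integral_add i3 (hy.const_mul c₄)
  have e3 := integral_add i2 (hv.const_mul c₃)
  have e2 := integral_add i1 (hu.const_mul c₂)
  have e1 := integral_add hd (hf.const_mul c₁)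
  rw [integral_const_mul] at e1 e2 e3 e4 e5 e6
  simp only [Pi.add_apply] at e1 e2 e3 e4 e5 e6 ⊢
  rw [e6, e5, e4, e3, e2, e1]

theorem iw {ρ : ℝ} {g χ f : V n → ℝ} (hg : ContDiff ℝ ∞ g) (hχ : ContDiff ℝ ∞ χ)
    (hc : HasCompactSupport χ) (hf : Continuous f) :
    Integrable fun x => χ x ^ 2 * Real.exp (2 * ρ * g x) * f x :=
  icc (((hχ.continuous.pow 2).mul (Real.continuous_exp.comp
    (continuous_const.mul hg.continuous))).mul hf) (HasCompactSupport.intro hc fun x hx => by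
      rw [image_eq_zero_of_notMem_tsupport hx]; ring)

end

/-- The arithmetic at the end. -/
theorem fin_arith {n : ℕ} {Cs C3 ρ α β Ψ Iu Iv Iy Iz Iq It : ℝ} (hCs : 0 < Cs) (hC30 : 0 < C3)
    (hρ3 : 1 ≤ ρ) (hρ2 : 16 * Cs ≤ ρ) (hα : α = ρ / (8 * Cs)) (hβ : β = 1 / (4 * Cs * ρ))
    (hf0 : 0 ≤ Ψ) (n_y : 0 ≤ Iy) (n_z : 0 ≤ Iz) (n_t : 0 ≤ It) (b1 : Iu ≤ Cs / ρ * Ψ)
    (b2 : Iv ≤ Cs * ρ * Ψ) (e_z : Iq ≤ Iz + Iy)
    (key : Ψ ≤ 0 + 1 / 8 * Ψ + (2 + α) * Iu + β / 2 * Iv + C3 / (2 * β) * Iy +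
      C3 / (2 * α) * Iq + n * ρ ^ 2 * (C3 / (2 * α)) * It) :
    Ψ ≤ (20 + 8 * n) * (Cs * C3) * ρ * Iy + (20 + 8 * n) * (Cs * C3) / ρ * Iz +
      (20 + 8 * n) * (Cs * C3) * ρ ^ 6 * It := by
  have hn0 : (0 : ℝ) ≤ n := Nat.cast_nonneg n
  have hρ0 : 0 < ρ := by linarith
  have hα0 : 0 < α := by rw [hα]; positivity
  have hβ0 : 0 < β := by rw [hβ]; positivity
  have m1 : (2 + α) * Iu ≤ 1 / 4 * Ψ := by
    have r1 : (2 + α) * Iu ≤ (2 + α) * (Cs / ρ * Ψ) := mul_le_mul_of_nonneg_left b1 (by positivity)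
    have r2 : (2 + α) * (Cs / ρ) ≤ 1 / 4 := by
      rw [hα]
      have r3 : (2 + ρ / (8 * Cs)) * (Cs / ρ) = 2 * Cs / ρ + 1 / 8 := by
        field_simp
      rw [r3]
      have r4 : 2 * Cs / ρ ≤ 1 / 8 := by
        rw [div_le_iff₀ hρ0]; linarith
      linarith
    have r5 := mul_le_mul_of_nonneg_right r2 hf0
    linarith
  have m2 : β / 2 * Iv ≤ 1 / 8 * Ψ := by
    have r1 : β / 2 * Iv ≤ β / 2 * (Cs * ρ * Ψ) := mul_le_mul_of_nonneg_left b2 (by positivity)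
    have r2 : β / 2 * (Cs * ρ * Ψ) = 1 / 8 * Ψ := by
      have r3 : β * (Cs * ρ) = 1 / 4 := by rw [hβ]; field_simp
      calc β / 2 * (Cs * ρ * Ψ) = β * (Cs * ρ) * Ψ / 2 := by ring
        _ = _ := by rw [r3]; ring
    linarith
  have m3 : C3 / (2 * β) * Iy = 2 * (Cs * C3 * ρ * Iy) := by
    have r3 : C3 / (2 * β) = 2 * (Cs * C3 * ρ) := by
      rw [div_eq_iff (by positivity), hβ]; field_simp; ring
    rw [r3]; ring
  have r1 : C3 / (2 * α) = 4 * (Cs * C3 / ρ) := by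
    rw [div_eq_iff (by positivity), hα]; field_simp; ring
  have m4 : C3 / (2 * α) * Iq ≤ 4 * (Cs * C3 / ρ * Iz) + 4 * (Cs * C3 / ρ * Iy) := by
    rw [r1]
    have := mul_le_mul_of_nonneg_left e_z (by positivity : 0 ≤ 4 * (Cs * C3 / ρ))
    linarith
  have m5 : n * ρ ^ 2 * (C3 / (2 * α)) * It ≤ 4 * (n * (Cs * C3 * ρ ^ 6 * It)) := by
    have r2 : n * ρ ^ 2 * (C3 / (2 * α)) = 4 * n * (Cs * C3) * ρ := by
      rw [r1]; field_simp
    rw [r2]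
    have r3 : ρ ≤ ρ ^ 6 := by
      calc ρ = ρ ^ 1 := (pow_one ρ).symm
        _ ≤ ρ ^ 6 := pow_le_pow_right₀ hρ3 (by norm_num)
    have r4 : 4 * n * (Cs * C3) * ρ * It ≤ 4 * n * (Cs * C3) * ρ ^ 6 * It :=
      mul_le_mul_of_nonneg_right (mul_le_mul_of_nonneg_left r3 (by positivity)) n_t
    refine r4.trans (le_of_eq ?_)
    ring
  have m6 : Cs * C3 / ρ * Iy ≤ Cs * C3 * ρ * Iy := by
    refine mul_le_mul_of_nonneg_right ?_ n_y
    rw [div_le_iff₀ hρ0]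
    have r1 : 1 ≤ ρ * ρ := by nlinarith
    have r2 : 0 < Cs * C3 := by positivity
    nlinarith
  have p1 : 0 ≤ Cs * C3 / ρ * Iz := by positivity
  have p2 : 0 ≤ n * (Cs * C3 / ρ * Iz) := by positivity
  have p3 : 0 ≤ Cs * C3 * ρ * Iy := by positivity
  have p4 : 0 ≤ n * (Cs * C3 * ρ * Iy) := by positivity
  have p5 : 0 ≤ Cs * C3 * ρ ^ 6 * It := by positivity
  have p6 : 0 ≤ n * (Cs * C3 * ρ ^ 6 * It) := by positivity
  have q1 : (20 + 8 * n) * (Cs * C3) * ρ * Iy = 20 * (Cs * C3 * ρ * Iy) +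
    8 * (n * (Cs * C3 * ρ * Iy)) := by ring
  have q2 : (20 + 8 * n) * (Cs * C3) / ρ * Iz = 20 * (Cs * C3 / ρ * Iz) +
    8 * (n * (Cs * C3 / ρ * Iz)) := by ring
  have q3 : (20 + 8 * n) * (Cs * C3) * ρ ^ 6 * It = 20 * (Cs * C3 * ρ ^ 6 * It) +
    8 * (n * (Cs * C3 * ρ ^ 6 * It)) := by ring
  rw [m3] at key
  rw [q1, q2, q3]
  generalize Cs * C3 / ρ * Iz = A1 at *
  generalize Cs * C3 * ρ * Iy = A2 at *
  generalize Cs * C3 / ρ * Iy = A3 at *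
  generalize Cs * C3 * ρ ^ 6 * It = A4 at *
  generalize (n : ℝ) * A1 = A5 at *
  generalize (n : ℝ) * A2 = A6 at *
  generalize (n : ℝ) * A4 = A7 at *
  linarith

/-- **(TR)** the weighted estimate of the trace part. -/
theorem rowXTR (hgi : RowXGI) : RowXTR := by
  intro n N hn _ M _ C₁ hM _ hC₁
  obtain ⟨k0, δ0, hδ0, HG⟩ := hgi n N
  obtain ⟨Cs, δs, hCs, hδs, HS⟩ := solE n hM hC₁
  obtain ⟨C3, hC3⟩ : ∃ C3 : ℝ, C3 = c3c n N := ⟨_, rfl⟩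
  have hC30 : 0 < C3 := by rw [hC3]; exact c3_pos n N
  have hn0 : (0 : ℝ) ≤ n := Nat.cast_nonneg n
  obtain ⟨δ, hδ⟩ : ∃ δ : ℝ, δ = min (min δ0 δs) (min (1 / 2) (1 / ((n : ℝ) + 1) ^ 2)) := ⟨_, rfl⟩
  have hδp : 0 < δ := by rw [hδ]; positivity
  have d0' : δ ≤ δ0 := by rw [hδ]; exact (min_le_left _ _).trans (min_le_left _ _)
  have ds : δ ≤ δs := by rw [hδ]; exact (min_le_left _ _).trans (min_le_right _ _)
  have dh : δ ≤ 1 / 2 := by rw [hδ]; exact (min_le_right _ _).trans (min_le_left _ _)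
  have dn : δ ≤ 1 / ((n : ℝ) + 1) ^ 2 := by
    rw [hδ]; exact (min_le_right _ _).trans (min_le_right _ _)
  have d1' : δ ≤ 1 := by linarith
  refine ⟨max k0 2, (20 + 8 * n) * (Cs * C3), δ, max 1 (16 * Cs), by positivity, hδp,
    le_max_left _ _, fun O K j₀ s₁ s₂ P₁ P₂ G₁ G₂ β' Y D h Γ hΓ g hg ρ hρ hsl B χ χ₁ χ₂ hcc =>
    ?_⟩
  have hρ3 : 1 ≤ ρ := (le_max_left _ _).trans hρ
  have hρ2 : 16 * Cs ≤ ρ := (le_max_right _ _).trans hρ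
  have hρ0 : 0 < ρ := by linarith
  have hk2 : 2 ≤ max k0 2 := le_max_right _ _
  have hk1 : 1 ≤ max k0 2 := le_trans (by norm_num) hk2
  obtain ⟨-, HG2⟩ := HG O K j₀ s₁ s₂ P₁ P₂ G₁ G₂ β' Y D (RL.mono h (le_max_left _ _) d0') Γ
    (IG.mono hΓ (le_max_left _ _) d0')
  have hpss := ps_s h dh hn
  -- the source
  obtain ⟨F, hF⟩ : ∃ F : V n → ℝ, F = fun x => χ x * ps j₀ s₁ s₂ P₁ P₂ x * Real.exp (2 * ρ * g x) :=
    ⟨_, rfl⟩
  have hFs : ContDiff ℝ ∞ F := by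
    rw [hF]; exact (hcc.s0.mul hpss).mul (contDiff_const.mul hg.gs).exp
  have hc0 : HasCompactSupport χ := (CC.cu hcc).c0
  have hFc : HasCompactSupport F := by
    rw [hF]
    exact HasCompactSupport.intro hc0 fun x hx => by
      rw [image_eq_zero_of_notMem_tsupport hx]; ring
  have hFt : tsupport F ⊆ O := by
    have h1 : tsupport F ⊆ tsupport χ := by
      refine closure_mono fun y hy => ?_
      rw [Function.mem_support] at hy ⊢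
      intro h'
      apply hy
      rw [hF]
      simp only [h', zero_mul]
    exact h1.trans ((CC.cu hcc).t01.trans ((CC.cu hcc).t12.trans hcc.o2))
  obtain ⟨W, hW, hWL, b1, b2⟩ := HS O h.op s₁ h.d₁.ss
    (fun i j => cl_mono (h.d₁.cs i j) hk2 ds) g hg.gs hg.g1 ρ hρ3 hsl B χ χ₁ χ₂ hcc F hFs hFc hFt
  obtain ⟨f, hf⟩ : ∃ f : V n → ℝ, f = fun x => χ x ^ 2 * Real.exp (2 * ρ * g x) *
    ps j₀ s₁ s₂ P₁ P₂ x ^ 2 := ⟨_, rfl⟩
  have hΨ : ∫ x, F x ^ 2 * Real.exp (-(2 * ρ * g x)) = ∫ x, f x := by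
    congr 1
    funext x
    rw [hF, hf]
    have : Real.exp (2 * ρ * g x) * Real.exp (-(2 * ρ * g x)) = 1 := by
      rw [← Real.exp_add]; simp
    calc (χ x * ps j₀ s₁ s₂ P₁ P₂ x * Real.exp (2 * ρ * g x)) ^ 2 * Real.exp (-(2 * ρ * g x))
        = χ x ^ 2 * Real.exp (2 * ρ * g x) * ps j₀ s₁ s₂ P₁ P₂ x ^ 2 *
          (Real.exp (2 * ρ * g x) * Real.exp (-(2 * ρ * g x))) := by ring
      _ = _ := by rw [this, mul_one]
  rw [hΨ] at b1 b2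
  have hf0 : 0 ≤ ∫ x, f x := integral_nonneg fun x => by rw [hf]; positivity
  have hX : ∀ j b, ContDiff ℝ ∞ (fX j₀ s₁ s₂ P₁ P₂ D Γ j b) := fun j b => fX_s h hΓ j b
  -- continuity
  have c_hh : Continuous (hh s₁ s₂) := continuous_finsetSum _ fun i _ =>
    continuous_finsetSum _ fun j _ => ((h.d₂.ss i j).continuous.sub (h.d₁.ss i j).continuous).pow 2
  have c_h0 : Continuous (h0 s₁ s₂) := continuous_finsetSum _ fun i _ =>
    continuous_finsetSum _ fun j _ => (((h.d₂.ss i j).continuous.sub (h.d₁.ss i j).continuous).sub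
      ((ph_s h dh hn).continuous.mul (h.d₁.ss i j).continuous)).pow 2
  have c_nq : Continuous fun x => nq (P₂ x - P₁ x) := nq_s (smC_sub h.d₂.sP h.d₁.sP)
  have c_d1 : Continuous (d1 D) := continuous_finsetSum _ fun a _ =>
    continuous_finsetSum _ fun i _ => nq_s (smC_pdm (h.sD a) i)
  have c_d0 : Continuous (d0 D) := continuous_finsetSum _ fun a _ => nq_s (h.sD a)
  have c_U : Continuous (U0 s₁ s₂ P₁ P₂ D) := ((c_hh.add c_nq).add c_d0).add c_d1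
  -- integrability
  have i_f : Integrable f := by
    rw [hf]; exact iw hg.gs hcc.s0 hc0 (hpss.continuous.pow 2)
  have hEs : ContDiff ℝ ∞ (Ew ρ g) := Ew_s hg.gs
  have i_u : Integrable fun x => (χ₂ x * Ew ρ g x) ^ 2 * gq W x :=
    icc (((hcc.s2.mul hEs).continuous.pow 2).mul (gq_c hW)) (HasCompactSupport.intro hcc.c2
      fun x hx => by rw [image_eq_zero_of_notMem_tsupport hx]; ring)
  have i_v : Integrable fun x => (χ₁ x * Ew ρ g x) ^ 2 * hq W x :=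
    icc (((hcc.s1.mul hEs).continuous.pow 2).mul (hq_c hW)) (HasCompactSupport.intro
      (CC.cu hcc).c1 fun x hx => by rw [image_eq_zero_of_notMem_tsupport hx]; ring)
  have i_y : Integrable fun x => χ x ^ 2 * Real.exp (2 * ρ * g x) * (h0 s₁ s₂ x + d1 D x) :=
    iw hg.gs hcc.s0 hc0 (c_h0.add c_d1)
  have i_z : Integrable fun x => χ x ^ 2 * Real.exp (2 * ρ * g x) *
    (hh s₁ s₂ x + nq (P₂ x - P₁ x) + d1 D x) := iw hg.gs hcc.s0 hc0 ((c_hh.add c_nq).add c_d1)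
  have i_z' : Integrable fun x => χ x ^ 2 * Real.exp (2 * ρ * g x) *
    (hh s₁ s₂ x + nq (P₂ x - P₁ x) + d0 D x) := iw hg.gs hcc.s0 hc0 ((c_hh.add c_nq).add c_d0)
  have i_t0 : IntegrableOn (fun x => Real.exp (2 * ρ * g x) * U0 s₁ s₂ P₁ P₂ D x) B := by
    refine IntegrableOn.mono_set ?_ hcc.bB
    exact ((Real.continuous_exp.comp (continuous_const.mul hg.gs.continuous)).mul
      c_U).continuousOn.integrableOn_compact hc0
  have i_t : Integrable (B.indicator fun x => Real.exp (2 * ρ * g x) * U0 s₁ s₂ P₁ P₂ D x) :=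
    i_t0.integrable_indicator hcc.mB
  have hvc : ∀ j, HasCompactSupport (vf (fX j₀ s₁ s₂ P₁ P₂ D Γ) χ W j) := fun j =>
    HasCompactSupport.intro hc0 fun x hx => by
      unfold vf; rw [image_eq_zero_of_notMem_tsupport hx]; ring
  have i_d : Integrable fun x => ∑ j, pd j (vf (fX j₀ s₁ s₂ P₁ P₂ D Γ) χ W j) x :=
    integrable_finsetSum _ fun j _ => icc (cp (vf_s hX hcc.s0 hW j) j).continuous (scp (hvc j) j)
  have z_d : ∫ x, ∑ j, pd j (vf (fX j₀ s₁ s₂ P₁ P₂ D Γ) χ W j) x = 0 :=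
    intdiv (fun j => vf_s hX hcc.s0 hW j) hvc
  -- parameters
  obtain ⟨α, hα⟩ : ∃ α : ℝ, α = ρ / (8 * Cs) := ⟨_, rfl⟩
  obtain ⟨β, hβ⟩ : ∃ β : ℝ, β = 1 / (4 * Cs * ρ) := ⟨_, rfl⟩
  have hα0 : 0 < α := by rw [hα]; positivity
  have hβ0 : 0 < β := by rw [hβ]; positivity
  have U_nn : ∀ x, 0 ≤ U0 s₁ s₂ P₁ P₂ D x := fun x =>
    add_nonneg (add_nonneg (add_nonneg (hh_nn _ _ _) (nq_nonneg _)) (d0_nn _ _)) (d1_nn _ _)
  have key := int7 i_f i_d i_u i_v i_y i_z i_t (c₁ := 1 / 8) (c₂ := 2 + α) (c₃ := β / 2)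
    (c₄ := C3 / (2 * β)) (c₅ := C3 / (2 * α)) (c₆ := n * ρ ^ 2 * (C3 / (2 * α))) fun x => by
    by_cases hx : x ∈ tsupport χ
    · have hx1 := (CC.cu hcc).t01 hx
      have hx2 := (CC.cu hcc).t12 hx1
      have hxO := hcc.o2 hx2
      have hGx : ∀ b, ∑ j, pd j (fX j₀ s₁ s₂ P₁ P₂ D Γ j b) x = fR j₀ s₁ s₂ P₁ P₂ G₂ Y D Γ b x := by
        intro b
        have e : ∀ j, pd j (fX j₀ s₁ s₂ P₁ P₂ D Γ j b) x = pd j (fA j₀ s₁ s₂ P₁ P₂ j b) x +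
            pd j (fE j₀ s₂ P₂ D Γ j b) x := fun j => padd (fA_s h j b) (fE_s h hΓ j b) j x
        simp only [e, Finset.sum_add_distrib]
        exact HG2 b x hxO
      have p0 := point_le (χ := χ) (W := W) (F := F) (p := ps j₀ s₁ s₂ P₁ P₂) (g := g) (ρ := ρ)
        h.d₁.ss hX hcc.s0 hW hGx (fun j b => fX_eq j₀ s₁ s₂ P₁ P₂ D Γ j b x) (hWL x hx2)
        (by rw [hF]) (dv_le h.d₁.ss (fun i j => cl_mono (h.d₁.cs i j) hk1 le_rfl) hδp.le dn x)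
        hα0 hβ0
      have e1 : χ₁ x = 1 := hcc.i1 x hx
      have e2 : χ₂ x = 1 := hcc.i2 x hx1
      have hE0 : 0 < Real.exp (2 * ρ * g x) := Real.exp_pos _
      have q1 := mul_le_mul_of_nonneg_left (sY_le h hΓ d1' x)
        (by positivity : 0 ≤ χ x ^ 2 * Real.exp (2 * ρ * g x))
      have q2 := mul_le_mul_of_nonneg_left (sR_le h hΓ hk1 d1' x)
        (by positivity : 0 ≤ χ x ^ 2 * Real.exp (2 * ρ * g x))
      have q3 : gq χ x * Real.exp (2 * ρ * g x) * ∑ j, ∑ b, fX j₀ s₁ s₂ P₁ P₂ D Γ j b x ^ 2 ≤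
          n * ρ ^ 2 * C3 * B.indicator (fun x => Real.exp (2 * ρ * g x) *
            U0 s₁ s₂ P₁ P₂ D x) x := by
        by_cases hxB : x ∈ B
        · rw [indicator_of_mem hxB]
          have r1 : gq χ x ≤ n * ρ ^ 2 := by
            unfold gq
            calc ∑ i, pd i χ x ^ 2 ≤ ∑ _i : Fin n, ρ ^ 2 := by
                  refine Finset.sum_le_sum fun i _ => ?_
                  rw [← sq_abs]; exact pow_le_pow_left₀ (abs_nonneg _) (hcc.d0 i x) 2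
              _ = n * ρ ^ 2 := by simp
          have r2 : ∑ j, ∑ b, fX j₀ s₁ s₂ P₁ P₂ D Γ j b x ^ 2 ≤ C3 * U0 s₁ s₂ P₁ P₂ D x := by
            rw [hC3]
            refine (sX_le h hΓ d1' x).trans (mul_le_mul_of_nonneg_left ?_ (c3_pos n N).le)
            unfold U0
            have := d0_nn D x
            linarith
          have r3 := mul_le_mul_of_nonneg_right r1 hE0.le
          have r4 := mul_le_mul r3 r2 (Finset.sum_nonneg fun _ _ => Finset.sum_nonneg fun _ _ =>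
            sq_nonneg _) (by positivity)
          refine r4.trans (le_of_eq ?_)
          ring
        · rw [indicator_of_notMem hxB]
          have : gq χ x = 0 := Finset.sum_eq_zero fun i _ => by rw [(hcc.zB x hxB i).1]; ring
          rw [this]
          simp
      rw [← hC3] at q1 q2
      have w1 : 0 ≤ 1 / (2 * β) := by positivity
      have w2 : 0 ≤ 1 / (2 * α) := by positivity
      have v1 := mul_le_mul_of_nonneg_left q1 w1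
      have v2 := mul_le_mul_of_nonneg_left q2 w2
      have v3 := mul_le_mul_of_nonneg_left q3 w2
      rw [e1, e2, one_mul]
      have hfx : f x = χ x ^ 2 * Real.exp (2 * ρ * g x) * ps j₀ s₁ s₂ P₁ P₂ x ^ 2 := by rw [hf]
      rw [hfx]
      refine p0.trans ?_
      have u1 : C3 / (2 * β) * (χ x ^ 2 * Real.exp (2 * ρ * g x) * (h0 s₁ s₂ x + d1 D x)) =
          1 / (2 * β) * (χ x ^ 2 * Real.exp (2 * ρ * g x) * (C3 * (h0 s₁ s₂ x + d1 D x))) := by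
        ring
      have u2 : C3 / (2 * α) * (χ x ^ 2 * Real.exp (2 * ρ * g x) *
          (hh s₁ s₂ x + nq (P₂ x - P₁ x) + d1 D x)) = 1 / (2 * α) * (χ x ^ 2 *
          Real.exp (2 * ρ * g x) * (C3 * (hh s₁ s₂ x + nq (P₂ x - P₁ x) + d1 D x))) := by ring
      have u3 : n * ρ ^ 2 * (C3 / (2 * α)) * B.indicator (fun x => Real.exp (2 * ρ * g x) *
            U0 s₁ s₂ P₁ P₂ D x) x = 1 / (2 * α) * (n * ρ ^ 2 * C3 * B.indicator (fun x =>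
            Real.exp (2 * ρ * g x) * U0 s₁ s₂ P₁ P₂ D x) x) := by ring
      rw [u1, u2, u3]
      linarith
    · have a0 : χ x = 0 := image_eq_zero_of_notMem_tsupport hx
      have a1 : ∑ j, pd j (vf (fX j₀ s₁ s₂ P₁ P₂ D Γ) χ W j) x = 0 := by
        refine Finset.sum_eq_zero fun j _ => poff (fun hx' => hx ?_) j
        refine (closure_mono ?_ : tsupport (vf (fX j₀ s₁ s₂ P₁ P₂ D Γ) χ W j) ⊆ tsupport χ) hx'
        intro y hy
        rw [Function.mem_support] at hy ⊢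
        intro h'
        apply hy
        unfold vf
        rw [h', zero_mul]
      have hfx : f x = 0 := by rw [hf]; simp only [a0]; ring
      rw [a1, hfx, a0]
      have b3 : 0 ≤ B.indicator (fun x => Real.exp (2 * ρ * g x) * U0 s₁ s₂ P₁ P₂ D x) x :=
        indicator_nonneg (fun y _ => mul_nonneg (Real.exp_pos _).le (U_nn y)) x
      have b4 : 0 ≤ (2 + α) * ((χ₂ x * Ew ρ g x) ^ 2 * gq W x) :=
        mul_nonneg (by positivity) (mul_nonneg (sq_nonneg _) (gq_nn _ _))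
      have b5 : 0 ≤ β / 2 * ((χ₁ x * Ew ρ g x) ^ 2 * hq W x) :=
        mul_nonneg (by positivity) (mul_nonneg (sq_nonneg _) (hq_nn _ _))
      have b6 : 0 ≤ n * ρ ^ 2 * (C3 / (2 * α)) * B.indicator (fun x => Real.exp (2 * ρ * g x) *
          U0 s₁ s₂ P₁ P₂ D x) x := mul_nonneg (by positivity) b3
      simp only [ne_eq, OfNat.ofNat_ne_zero, not_false_eq_true, zero_pow, zero_mul, mul_zero,
        add_zero, zero_add]
      linarith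
  -- the end
  rw [z_d, integral_indicator hcc.mB] at key
  have e_f : wI χ g ρ (fun x => ps j₀ s₁ s₂ P₁ P₂ x ^ 2) = ∫ x, f x := by rw [hf]; rfl
  have e_y : ∫ x, χ x ^ 2 * Real.exp (2 * ρ * g x) * (h0 s₁ s₂ x + d1 D x) =
      wI χ g ρ (fun x => h0 s₁ s₂ x + d1 D x) := rfl
  have e_t : ∫ x in B, Real.exp (2 * ρ * g x) * U0 s₁ s₂ P₁ P₂ D x =
      wB B g ρ (U0 s₁ s₂ P₁ P₂ D) := rfl
  have e_z : ∫ x, χ x ^ 2 * Real.exp (2 * ρ * g x) * (hh s₁ s₂ x + nq (P₂ x - P₁ x) + d1 D x) ≤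
      wI χ g ρ (fun x => hh s₁ s₂ x + nq (P₂ x - P₁ x) + d0 D x) +
      wI χ g ρ (fun x => h0 s₁ s₂ x + d1 D x) := by
    unfold wI
    rw [← integral_add i_z' i_y]
    refine integral_mono i_z (i_z'.add i_y) fun x => ?_
    show χ x ^ 2 * Real.exp (2 * ρ * g x) * (hh s₁ s₂ x + nq (P₂ x - P₁ x) + d1 D x) ≤
      χ x ^ 2 * Real.exp (2 * ρ * g x) * (hh s₁ s₂ x + nq (P₂ x - P₁ x) + d0 D x) +
      χ x ^ 2 * Real.exp (2 * ρ * g x) * (h0 s₁ s₂ x + d1 D x)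
    have r1 : 0 ≤ χ x ^ 2 * Real.exp (2 * ρ * g x) := by positivity
    have r2 := mul_nonneg r1 (d0_nn D x)
    have r3 := mul_nonneg r1 (h0_nn s₁ s₂ x)
    nlinarith
  rw [e_f]
  have n_y : 0 ≤ wI χ g ρ (fun x => h0 s₁ s₂ x + d1 D x) := integral_nonneg fun x =>
    mul_nonneg (by positivity) (add_nonneg (h0_nn _ _ _) (d1_nn _ _))
  have n_z : 0 ≤ wI χ g ρ (fun x => hh s₁ s₂ x + nq (P₂ x - P₁ x) + d0 D x) :=
    integral_nonneg fun x => mul_nonneg (by positivity)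
      (add_nonneg (add_nonneg (hh_nn _ _ _) (nq_nonneg _)) (d0_nn _ _))
  have n_t : 0 ≤ wB B g ρ (U0 s₁ s₂ P₁ P₂ D) := integral_nonneg fun x =>
    mul_nonneg (Real.exp_pos _).le (U_nn x)
  rw [e_y, e_t] at key
  generalize wI χ g ρ (fun x => h0 s₁ s₂ x + d1 D x) = Iy at *
  generalize wI χ g ρ (fun x => hh s₁ s₂ x + nq (P₂ x - P₁ x) + d0 D x) = Iz at *
  generalize wB B g ρ (U0 s₁ s₂ P₁ P₂ D) = It at *
  generalize (∫ x, χ x ^ 2 * Real.exp (2 * ρ * g x) *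
    (hh s₁ s₂ x + nq (P₂ x - P₁ x) + d1 D x)) = Iq at *
  generalize (∫ x, (χ₂ x * Ew ρ g x) ^ 2 * gq W x) = Iu at *
  generalize (∫ x, (χ₁ x * Ew ρ g x) ^ 2 * hq W x) = Iv at *
  generalize (∫ x, f x) = Ψ at *
  exact fin_arith hCs hC30 hρ3 hρ2 hα hβ hf0 n_y n_z n_t b1 b2 e_z key

end Vale.Agent.P088.S4.H999
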